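import Crest.Agent.KK.Defs
set_option autoImplicit false
open Finset
open scoped Classical

namespace Crest.Agent.KK

variable {N : Type} [Fintype N] [DecidableEq N]

theorem pen_zero (s : ℝ) : Pen s 0 = 0 := by simp [Pen]

theorem pen_nonneg {s : ℝ} (hs : 0 ≤ s) (m : ℕ) : 0 ≤ Pen s m := by
  unfold Pen
  have h1 : 0 ≤ 64 * s / (m : ℝ) := by positivity
  have h2 : 0 ≤ Real.log (1 + 64 * s / (m : ℝ)) := Real.log_nonneg (by linarith)
  positivity

theorem logpen_anti {s : ℝ} (hs : 0 ≤ s) {m k : ℕ} (hm : 0 < m) (h : m ≤ k) :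
    Real.log (1 + 64 * s / (k : ℝ)) ≤ Real.log (1 + 64 * s / (m : ℝ)) := by
  have hm' : (0 : ℝ) < m := by exact_mod_cast hm
  have hk' : (m : ℝ) ≤ k := by exact_mod_cast h
  apply Real.log_le_log
  · have : 0 ≤ 64 * s / (k : ℝ) := by positivity
    linarith
  · have : 64 * s / (k : ℝ) ≤ 64 * s / (m : ℝ) :=
      div_le_div_of_nonneg_left (by positivity) hm' hk'
    linarith

theorem pen_add {s : ℝ} (hs : 0 ≤ s) (m k : ℕ) : Pen s (m + k) ≤ Pen s m + Pen s k := by
  rcases Nat.eq_zero_or_pos m with hm | hm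
  · subst hm; simp [pen_zero]
  rcases Nat.eq_zero_or_pos k with hk | hk
  · subst hk; simp [pen_zero]
  have h1 := logpen_anti hs hm (Nat.le_add_right m k)
  have h2 := logpen_anti hs hk (Nat.le_add_left k m)
  unfold Pen
  have e1 : (1 / 2 : ℝ) * (m : ℝ) * Real.log (1 + 64 * s / ((m + k : ℕ) : ℝ))
      ≤ (1 / 2) * (m : ℝ) * Real.log (1 + 64 * s / (m : ℝ)) :=
    mul_le_mul_of_nonneg_left h1 (by positivity)
  have e2 : (1 / 2 : ℝ) * (k : ℝ) * Real.log (1 + 64 * s / ((m + k : ℕ) : ℝ))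
      ≤ (1 / 2) * (k : ℝ) * Real.log (1 + 64 * s / (k : ℝ)) :=
    mul_le_mul_of_nonneg_left h2 (by positivity)
  have e3 : ((m + k : ℕ) : ℝ) = (m : ℝ) + k := by push_cast; ring
  have e4 : (1 / 2 : ℝ) * ((m + k : ℕ) : ℝ) * Real.log (1 + 64 * s / ((m + k : ℕ) : ℝ))
      = (1 / 2 : ℝ) * (m : ℝ) * Real.log (1 + 64 * s / ((m + k : ℕ) : ℝ))
        + (1 / 2 : ℝ) * (k : ℝ) * Real.log (1 + 64 * s / ((m + k : ℕ) : ℝ)) := by
    nth_rewrite 1 [e3]; ring
  rw [e4]
  nth_rewrite 1 [e3]
  linarith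

theorem cl_om_pos {s : ℝ} (hs : 0 < s) {a : ℕ} (ha : 1 ≤ a) : 0 < om s a := by
  unfold om
  have : (0 : ℝ) < a := by exact_mod_cast ha
  split_ifs
  · positivity
  · norm_num

theorem cl_om_le_one {s : ℝ} (hs : 0 < s) (a : ℕ) : om s a ≤ 1 := by
  unfold om
  split_ifs with h
  · apply pow_le_one₀ (by positivity)
    rw [div_le_one hs]; exact h.le
  · exact le_refl _

theorem wt_pos {pos : N → ℕ} {s : ℝ} (hs : 0 < s) {D : Finset N} (hD : ∀ e ∈ D, 1 ≤ pos e) :
    0 < Wt pos s D := by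
  unfold Wt
  refine mul_pos (Finset.prod_pos fun e he => ?_) (Real.exp_pos _)
  exact inv_pos.mpr (cl_om_pos hs (hD e he))

theorem mem_orb {Γ : Subgroup (Equiv.Perm N)} {T T' : Finset N} :
    T' ∈ orb Γ T ↔ ∃ σ ∈ Γ, T.image σ = T' := by
  simp [orb]

theorem self_mem_orb (Γ : Subgroup (Equiv.Perm N)) (T : Finset N) : T ∈ orb Γ T := by
  rw [mem_orb]
  exact ⟨1, Γ.one_mem, by simp⟩

theorem orb_card_pos (Γ : Subgroup (Equiv.Perm N)) (T : Finset N) : 0 < (orb Γ T).card :=
  Finset.card_pos.mpr ⟨T, self_mem_orb Γ T⟩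

theorem propP_zero (Γ : Subgroup (Equiv.Perm N)) (H : Finset N) (pos : N → ℕ)
    (hpos : ∀ e ∈ H, 1 ≤ pos e) (p : ℝ) (hp : 0 ≤ p)
    (hE : ∀ D ⊆ H, D.Nonempty → 1 / 2 ≤ ((orb Γ D).card : ℝ) * p ^ D.card) :
    PropP Γ H ∅ pos p 1 := by
  intro D hD
  have hDH : D ⊆ H := hD.trans Finset.sdiff_subset
  have hprod : ∏ e ∈ D, (om 1 (pos e))⁻¹ = 1 := by
    apply Finset.prod_eq_one
    intro e he
    have h1 : ¬ ((pos e : ℝ) < 1) := by
      push Not
      exact_mod_cast hpos e (hDH he)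
    simp [om, h1]
  rcases D.eq_empty_or_nonempty with h | h
  · subst h
    have h1 : (1 : ℝ) ≤ ((orb Γ ∅).card : ℝ) := by exact_mod_cast orb_card_pos Γ ∅
    simp only [Wt, Finset.prod_empty, Finset.filter_empty, Finset.card_empty, pen_zero, neg_zero,
      Real.exp_zero, pow_zero, mul_one]
    exact h1
  · have hfar : (D.filter (fun e => (1 : ℝ) ≤ (pos e : ℝ))) = D := by
      apply Finset.filter_true_of_mem
      intro e he
      exact_mod_cast hpos e (hDH he)
    have hc : (1 : ℝ) ≤ (D.card : ℝ) := by exact_mod_cast Finset.card_pos.mpr h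
    have hpen : (1 : ℝ) ≤ Pen 1 D.card := by
      unfold Pen
      have h1 : 0 ≤ 64 * (1 : ℝ) / (D.card : ℝ) := by positivity
      have h2 : 0 ≤ Real.log (1 + 64 * (1 : ℝ) / (D.card : ℝ)) := Real.log_nonneg (by linarith)
      have h3 : 0 ≤ 1 / 2 * (D.card : ℝ) * Real.log (1 + 64 * (1 : ℝ) / (D.card : ℝ)) := by positivity
      linarith
    have hexp : Real.exp (-Pen 1 D.card) ≤ 1 / 2 := by
      have h1 : Real.exp (-Pen 1 D.card) ≤ Real.exp (-1) := Real.exp_le_exp.mpr (by linarith)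
      have h2 : Real.exp (-1) ≤ 1 / 2 := by
        rw [Real.exp_neg, inv_le_comm₀ (Real.exp_pos _) (by norm_num)]
        have := Real.add_one_le_exp (1 : ℝ)
        norm_num at this ⊢
        linarith
      linarith
    unfold Wt
    rw [hprod, hfar, one_mul]
    exact hexp.trans (hE D hDH h)

theorem orb_union (Γ : Subgroup (Equiv.Perm N)) (S D : Finset N) :
    (orb Γ (S ∪ D)).card ≤ (orb Γ S).card * (orb (stab Γ S) D).card := by
  have hch : ∀ S' : Finset N, ∃ ρ : Equiv.Perm N, S' ∈ orb Γ S → (ρ ∈ Γ ∧ S.image ρ = S') := by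
    intro S'
    by_cases h : S' ∈ orb Γ S
    · obtain ⟨σ, h1, h2⟩ := mem_orb.mp h
      exact ⟨σ, fun _ => ⟨h1, h2⟩⟩
    · exact ⟨1, fun h' => absurd h' h⟩
  choose ρ hρ using hch
  have hsub : orb Γ (S ∪ D) ⊆ (orb Γ S ×ˢ orb (stab Γ S) D).image
      (fun q => q.1 ∪ q.2.image (ρ q.1)) := by
    intro T hT
    obtain ⟨σ, hσ, rfl⟩ := mem_orb.mp hT
    have hS' : S.image σ ∈ orb Γ S := mem_orb.mpr ⟨σ, hσ, rfl⟩
    obtain ⟨hρ1, hρ2⟩ := hρ _ hS'
    rw [Finset.mem_image]
    refine ⟨(S.image σ, D.image ((ρ (S.image σ))⁻¹ * σ : Equiv.Perm N)), ?_, ?_⟩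
    · rw [Finset.mem_product]
      refine ⟨hS', mem_orb.mpr ⟨(ρ (S.image σ))⁻¹ * σ, ?_, rfl⟩⟩
      refine ⟨Γ.mul_mem (Γ.inv_mem hρ1) hσ, ?_⟩
      have e1 : S.image (⇑((ρ (S.image σ))⁻¹ * σ)) = (S.image σ).image (⇑(ρ (S.image σ))⁻¹) := by
        rw [Finset.image_image]; rfl
      have this : (⇑((ρ (S.image σ))⁻¹) ∘ ⇑(ρ (S.image σ))) = id := by
        funext x; simp
      have e2 : (S.image (⇑(ρ (S.image σ)))).image (⇑(ρ (S.image σ))⁻¹) = S := by
        rw [Finset.image_image, this]; simp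
      rw [hρ2] at e2
      rw [e1]; exact e2
    · simp only
      rw [Finset.image_union, Finset.image_image]
      congr 2
      funext x
      simp
  calc (orb Γ (S ∪ D)).card ≤ _ := Finset.card_le_card hsub
    _ ≤ _ := Finset.card_image_le
    _ = _ := Finset.card_product _ _

theorem wt_union {pos : N → ℕ} {s : ℝ} (hs : 0 < s) {S D : Finset N} (hd : Disjoint S D)
    (hS : ∀ e ∈ S, 1 ≤ pos e) (hD : ∀ e ∈ D, 1 ≤ pos e) :
    Wt pos s S * Wt pos s D ≤ Wt pos s (S ∪ D) := by
  unfold Wt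
  rw [Finset.prod_union hd, Finset.filter_union,
    Finset.card_union_of_disjoint (Finset.disjoint_filter_filter hd)]
  have h1 : 0 < ∏ e ∈ S, (om s (pos e))⁻¹ :=
    Finset.prod_pos fun e he => inv_pos.mpr (cl_om_pos hs (hS e he))
  have h2 : 0 < ∏ e ∈ D, (om s (pos e))⁻¹ :=
    Finset.prod_pos fun e he => inv_pos.mpr (cl_om_pos hs (hD e he))
  have h3 := pen_add hs.le (S.filter (fun e => s ≤ (pos e : ℝ))).card
    (D.filter (fun e => s ≤ (pos e : ℝ))).card
  have h4 : Real.exp (-Pen s (S.filter (fun e => s ≤ (pos e : ℝ))).card) *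
      Real.exp (-Pen s (D.filter (fun e => s ≤ (pos e : ℝ))).card) ≤
      Real.exp (-Pen s ((S.filter (fun e => s ≤ (pos e : ℝ))).card +
        (D.filter (fun e => s ≤ (pos e : ℝ))).card)) := by
    rw [← Real.exp_add]
    exact Real.exp_le_exp.mpr (by linarith)
  calc _ = ((∏ e ∈ S, (om s (pos e))⁻¹) * ∏ e ∈ D, (om s (pos e))⁻¹) *
      (Real.exp (-Pen s (S.filter (fun e => s ≤ (pos e : ℝ))).card) *
      Real.exp (-Pen s (D.filter (fun e => s ≤ (pos e : ℝ))).card)) := by ring
    _ ≤ _ := mul_le_mul_of_nonneg_left h4 (by positivity)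

/-- the positions below `t`: `∏ (t / pos) ≤ e^t`. -/
theorem prod_near_le {pos : N → ℕ} {t : ℝ} (ht : 0 < t) {S : Finset N}
    (hinj : Set.InjOn pos (S : Set N)) (hS : ∀ e ∈ S, 1 ≤ pos e ∧ (pos e : ℝ) < t) :
    ∏ e ∈ S, (t / (pos e : ℝ)) ≤ Real.exp t ∧ (S.card : ℝ) ≤ t := by
  -- compare with all integers in [1, K], K = number of integers < t
  set K := ⌈t⌉₊ - 1 with hK
  have hceil : 1 ≤ ⌈t⌉₊ := Nat.one_le_iff_ne_zero.mpr (by
    intro h; rw [Nat.ceil_eq_zero] at h; linarith)
  have hKt : (K : ℝ) < t := by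
    have h1 : ((⌈t⌉₊ : ℕ) : ℝ) < t + 1 := Nat.ceil_lt_add_one ht.le
    have h2 : (K : ℝ) = (⌈t⌉₊ : ℝ) - 1 := by
      rw [hK, Nat.cast_sub hceil]; simp
    linarith
  have himg : S.image pos ⊆ Finset.Icc 1 K := by
    intro a ha
    obtain ⟨e, he, rfl⟩ := Finset.mem_image.mp ha
    obtain ⟨h1, h2⟩ := hS e he
    rw [Finset.mem_Icc]
    refine ⟨h1, ?_⟩
    have h3 : pos e < ⌈t⌉₊ := Nat.lt_ceil.mpr h2
    omega
  constructor
  · have h1 : ∏ e ∈ S, (t / (pos e : ℝ)) = ∏ a ∈ S.image pos, (t / (a : ℝ)) := by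
      rw [Finset.prod_image hinj]
    rw [h1]
    have h2 : ∏ a ∈ S.image pos, (t / (a : ℝ)) ≤ ∏ a ∈ Finset.Icc 1 K, (t / (a : ℝ)) := by
      rw [← Finset.prod_sdiff himg]
      have h6 : 1 ≤ ∏ a ∈ Finset.Icc 1 K \ S.image pos, (t / (a : ℝ)) := by
        apply Finset.prod_induction _ (fun x : ℝ => 1 ≤ x)
          (fun a b ha hb => one_le_mul_of_one_le_of_one_le ha hb) le_rfl
        intro a ha
        have h3 := Finset.mem_Icc.mp (Finset.mem_sdiff.mp ha).1
        have h4 : (0 : ℝ) < a := by exact_mod_cast h3.1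
        have h5 : (a : ℝ) ≤ K := by exact_mod_cast h3.2
        rw [le_div_iff₀ h4]; linarith
      have h7 : 0 ≤ ∏ a ∈ S.image pos, (t / (a : ℝ)) :=
        Finset.prod_nonneg fun a _ => by positivity
      exact le_mul_of_one_le_left h7 h6
    refine h2.trans ?_
    have h3 : ∀ k : ℕ, ∏ a ∈ Finset.Icc 1 k, (t / (a : ℝ)) = t ^ k / (k.factorial : ℝ) := by
      intro k
      induction k with
      | zero => simp
      | succ k ih =>
        rw [Finset.prod_Icc_succ_top (by omega), ih, Nat.factorial_succ]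
        push_cast
        field_simp
        ring
    rw [h3]
    exact Real.pow_div_factorial_le_exp t ht.le K
  · have h1 : S.card = (S.image pos).card := (Finset.card_image_of_injOn hinj).symm
    have h2 : (S.image pos).card ≤ (Finset.Icc 1 K).card := Finset.card_le_card himg
    rw [Nat.card_Icc] at h2
    have h3 : (S.card : ℝ) ≤ K := by
      have : S.card ≤ K := by omega
      exact_mod_cast this
    linarith

theorem closure (Γ : Subgroup (Equiv.Perm N)) (H U : Finset N) (pos : N → ℕ)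
    (hinj : Set.InjOn pos (H : Set N)) (hpos : ∀ e ∈ H, 1 ≤ pos e) (p s : ℝ) (hp : 0 < p)
    (hs : 1 ≤ s) (hP : PropP Γ H U pos p s) :
    ∃ S ⊆ H \ U, (S.card : ℝ) ≤ 258 * s ∧ PropP (stab Γ S) H (U ∪ S) pos p (2 * s) := by
  have hs0 : 0 < s := by linarith
  have h2s : 0 < 2 * s := by linarith
  have hposD : ∀ D ⊆ H \ U, ∀ e ∈ D, 1 ≤ pos e := fun D hD e he =>
    hpos e (Finset.sdiff_subset (hD he))
  -- minimiser
  obtain ⟨S, hSmem, hSmin⟩ := Finset.exists_min_image ((H \ U).powerset)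
    (fun D => ((orb Γ D).card : ℝ) * p ^ D.card / Wt pos (2 * s) D) ⟨∅, by simp⟩
  have hSH : S ⊆ H \ U := Finset.mem_powerset.mp hSmem
  have hWS : 0 < Wt pos (2 * s) S := wt_pos h2s (hposD S hSH)
  have hoS : (0 : ℝ) < ((orb Γ S).card : ℝ) := by exact_mod_cast orb_card_pos Γ S
  have hpS : 0 < p ^ S.card := pow_pos hp _
  refine ⟨S, hSH, ?_, ?_⟩
  · -- size
    have hF1 : ((orb Γ S).card : ℝ) * p ^ S.card ≤ Wt pos (2 * s) S := by
      have h1 := hSmin ∅ (by simp)
      have h2 : (orb Γ (∅ : Finset N)).card = 1 := by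
        rw [Finset.card_eq_one]
        refine ⟨∅, ?_⟩
        ext T
        rw [mem_orb, Finset.mem_singleton]
        constructor
        · rintro ⟨σ, _, h⟩; simpa using h.symm
        · rintro rfl; exact ⟨1, Γ.one_mem, by simp⟩
      have h3 : Wt pos (2 * s) (∅ : Finset N) = 1 := by simp [Wt, pen_zero]
      rw [h2, h3] at h1
      simp only [Nat.cast_one, Finset.card_empty, pow_zero, mul_one, div_one] at h1
      rwa [div_le_one hWS] at h1
    have hP1 := hP S hSH
    set far2 := S.filter (fun e => 2 * s ≤ (pos e : ℝ)) with hfar2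
    set near2 := S.filter (fun e => ¬ (2 * s ≤ (pos e : ℝ))) with hnear2
    set far1 := S.filter (fun e => s ≤ (pos e : ℝ)) with hfar1
    have hinjS : Set.InjOn pos (S : Set N) := hinj.mono (by
      intro e he; exact Finset.sdiff_subset (hSH he))
    have hnearprop : ∀ e ∈ near2, 1 ≤ pos e ∧ (pos e : ℝ) < 2 * s := by
      intro e he
      rw [hnear2, Finset.mem_filter] at he
      exact ⟨hposD S hSH e he.1, not_le.mp he.2⟩
    obtain ⟨hprodnear, hcardnear⟩ := prod_near_le h2s
      (hinjS.mono (by intro e he; exact (Finset.mem_filter.mp he).1)) hnearprop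
    have hcard : S.card = far2.card + near2.card := by
      rw [hfar2, hnear2, Finset.card_filter_add_card_filter_not]
    -- upper bound for Wt_{2s}
    have hWup : Wt pos (2 * s) S ≤ Real.exp (14 * s) * Real.exp (-Pen (2 * s) far2.card) := by
      unfold Wt
      apply mul_le_mul_of_nonneg_right _ (Real.exp_pos _).le
      have h1 : ∏ e ∈ S, (om (2 * s) (pos e))⁻¹ = ∏ e ∈ near2, (2 * s / (pos e : ℝ)) ^ 7 := by
        rw [← Finset.prod_filter_mul_prod_filter_not S (fun e => 2 * s ≤ (pos e : ℝ))]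
        have h2 : ∏ e ∈ S.filter (fun e => 2 * s ≤ (pos e : ℝ)), (om (2 * s) (pos e))⁻¹ = 1 := by
          apply Finset.prod_eq_one
          intro e he
          have h3 : ¬ ((pos e : ℝ) < 2 * s) := not_lt.mpr (Finset.mem_filter.mp he).2
          simp [om, h3]
        rw [h2, one_mul]
        apply Finset.prod_congr rfl
        intro e he
        have h3 : (pos e : ℝ) < 2 * s := not_le.mp (Finset.mem_filter.mp he).2
        simp only [om, h3, if_true]
        rw [← inv_pow, inv_div]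
      rw [h1, Finset.prod_pow]
      calc (∏ e ∈ near2, (2 * s / (pos e : ℝ))) ^ 7 ≤ (Real.exp (2 * s)) ^ 7 := by
            apply pow_le_pow_left₀ _ hprodnear
            exact Finset.prod_nonneg fun e _ => by positivity
        _ = Real.exp (14 * s) := by
            rw [← Real.exp_nat_mul]; congr 1; push_cast; ring
    -- lower bound for Wt_s
    have hWlo : Real.exp (-Pen s far1.card) ≤ Wt pos s S := by
      unfold Wt
      have h1 : 1 ≤ ∏ e ∈ S, (om s (pos e))⁻¹ := by
        apply Finset.prod_induction _ (fun x : ℝ => 1 ≤ x)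
          (fun a b ha hb => one_le_mul_of_one_le_of_one_le ha hb) le_rfl
        intro e he
        exact (one_le_inv₀ (cl_om_pos hs0 (hposD S hSH e he))).mpr (cl_om_le_one hs0 _)
      exact le_mul_of_one_le_left (Real.exp_pos _).le h1
    have hmain : Real.exp (-Pen s far1.card)
        ≤ Real.exp (14 * s) * Real.exp (-Pen (2 * s) far2.card) :=
      hWlo.trans (hP1.trans (hF1.trans hWup))
    rw [← Real.exp_add, Real.exp_le_exp] at hmain
    have hk1 : far2.card ≤ far1.card := by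
      apply Finset.card_le_card
      intro e he
      rw [hfar2, Finset.mem_filter] at he
      rw [hfar1, Finset.mem_filter]
      exact ⟨he.1, by linarith [he.2]⟩
    have hk2 : far1.card ≤ S.card := Finset.card_le_card (Finset.filter_subset _ _)
    by_contra hbig
    push Not at hbig
    have hm256 : 256 * s < (far2.card : ℝ) := by
      have : (S.card : ℝ) = far2.card + near2.card := by exact_mod_cast hcard
      linarith
    have hm0 : 0 < far2.card := by
      have : (0 : ℝ) < (far2.card : ℝ) := by linarith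
      exact_mod_cast this
    have hmR : (0 : ℝ) < (far2.card : ℝ) := by exact_mod_cast hm0
    set m : ℝ := (far2.card : ℝ) with hmdef
    set k : ℝ := (far1.card : ℝ) with hkdef
    have hkm : k ≤ m + 2 * s := by
      have h1 : k ≤ (S.card : ℝ) := by rw [hkdef]; exact_mod_cast hk2
      have h2 : (S.card : ℝ) = far2.card + near2.card := by exact_mod_cast hcard
      linarith
    set L1 := Real.log (1 + 64 * s / m) with hL1
    set L2 := Real.log (1 + 64 * (2 * s) / m) with hL2
    have hL1n : 0 ≤ L1 := Real.log_nonneg (by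
      have : 0 ≤ 64 * s / m := by positivity
      linarith)
    have hPen1 : Pen s far1.card ≤ (m + 2 * s) * (1 + 1 / 2 * L1) := by
      have h1 := logpen_anti hs0.le hm0 hk1
      unfold Pen
      have h2 : (0 : ℝ) ≤ k := by positivity
      have h3 : k + 1 / 2 * k * Real.log (1 + 64 * s / k) ≤ k * (1 + 1 / 2 * L1) := by
        have : k * Real.log (1 + 64 * s / k) ≤ k * L1 := mul_le_mul_of_nonneg_left h1 h2
        linarith
      exact h3.trans (mul_le_mul_of_nonneg_right hkm (by linarith))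
    have hPen2 : Pen (2 * s) far2.card = m * (1 + 1 / 2 * L2) := by
      unfold Pen; ring
    rw [hPen2] at hmain
    have hL1u : L1 ≤ 1 / 4 := by
      have h1 : L1 ≤ 64 * s / m := by
        have := Real.log_le_sub_one_of_pos (show 0 < 1 + 64 * s / m by positivity)
        linarith
      have h2 : 64 * s / m ≤ 1 / 4 := by
        rw [div_le_iff₀ hmR]; linarith
      linarith
    have hL21 : 64 * s / (m + 128 * s) ≤ L2 - L1 := by
      have h1 : L2 - L1 = Real.log ((m + 128 * s) / (m + 64 * s)) := by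
        rw [hL2, hL1, ← Real.log_div (by positivity) (by positivity)]
        congr 1
        field_simp
        ring
      rw [h1]
      have h2 := Real.one_sub_inv_le_log_of_pos (show 0 < (m + 128 * s) / (m + 64 * s) by positivity)
      rw [inv_div] at h2
      have h3 : 64 * s / (m + 128 * s) = 1 - (m + 64 * s) / (m + 128 * s) := by
        field_simp; ring
      linarith
    have hL21' : 64 / 3 * s ≤ 1 / 2 * m * (L2 - L1) := by
      have h1 : 64 / 3 * s ≤ 1 / 2 * m * (64 * s / (m + 128 * s)) := by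
        rw [mul_div_assoc', le_div_iff₀ (by positivity)]
        nlinarith
      exact h1.trans (mul_le_mul_of_nonneg_left hL21 (by positivity))
    nlinarith [mul_nonneg hs0.le hL1n, mul_le_mul_of_nonneg_left hL1u hs0.le]
  · intro D hD
    have hDH : D ⊆ H \ U := by
      intro e he
      have := hD he
      rw [Finset.mem_sdiff, Finset.mem_union] at this
      rw [Finset.mem_sdiff]
      exact ⟨this.1, fun h => this.2 (Or.inl h)⟩
    have hdisj : Disjoint S D := by
      rw [Finset.disjoint_left]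
      intro e he he'
      have := hD he'
      rw [Finset.mem_sdiff, Finset.mem_union] at this
      exact this.2 (Or.inr he)
    have hmin := hSmin (S ∪ D) (Finset.mem_powerset.mpr (Finset.union_subset hSH hDH))
    have hWD : 0 < Wt pos (2 * s) D := wt_pos h2s (hposD D hDH)
    have hWU : 0 < Wt pos (2 * s) (S ∪ D) :=
      wt_pos h2s (hposD _ (Finset.union_subset hSH hDH))
    have hwu := wt_union h2s hdisj (hposD S hSH) (hposD D hDH)
    have hou : ((orb Γ (S ∪ D)).card : ℝ) ≤ ((orb Γ S).card : ℝ) * ((orb (stab Γ S) D).card : ℝ) := by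
      exact_mod_cast orb_union Γ S D
    rw [Finset.card_union_of_disjoint hdisj, pow_add, div_le_div_iff₀ hWS hWU] at hmin
    -- a/W1 ≤ b/W2
    have hpD : 0 < p ^ D.card := pow_pos hp _
    have h1 : ((orb Γ S).card : ℝ) * p ^ S.card * (Wt pos (2 * s) S * Wt pos (2 * s) D)
        ≤ ((orb Γ S).card : ℝ) * p ^ S.card * Wt pos (2 * s) (S ∪ D) :=
      mul_le_mul_of_nonneg_left hwu (by positivity)
    have h2 : ((orb Γ (S ∪ D)).card : ℝ) * (p ^ S.card * p ^ D.card) * Wt pos (2 * s) S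
        ≤ ((orb Γ S).card : ℝ) * ((orb (stab Γ S) D).card : ℝ) * (p ^ S.card * p ^ D.card)
          * Wt pos (2 * s) S := by
      apply mul_le_mul_of_nonneg_right _ hWS.le
      exact mul_le_mul_of_nonneg_right hou (by positivity)
    have h3 := (h1.trans hmin).trans h2
    have h4 : 0 < ((orb Γ S).card : ℝ) * p ^ S.card * Wt pos (2 * s) S := by positivity
    have h5 : (((orb Γ S).card : ℝ) * p ^ S.card * Wt pos (2 * s) S) * Wt pos (2 * s) D ≤
        (((orb Γ S).card : ℝ) * p ^ S.card * Wt pos (2 * s) S) *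
          (((orb (stab Γ S) D).card : ℝ) * p ^ D.card) := by nlinarith
    exact le_of_mul_le_mul_left h5 h4

theorem propP_final (Γ : Subgroup (Equiv.Perm N)) (H U : Finset N) (pos : N → ℕ) (n : ℕ)
    (hpos : ∀ e ∈ H, 1 ≤ pos e ∧ pos e ≤ n) (p s : ℝ) (hp : 0 ≤ p) (hp1 : p ≤ 1)
    (hs : (n : ℝ) * (Fintype.card N + 1) < s) (hP : PropP Γ H U pos p s) : H ⊆ U := by
  intro e he
  by_contra heU
  have h1 := hP {e} (by simp [he, heU])
  obtain ⟨hp1', hpn⟩ := hpos e he
  have hposR : (1 : ℝ) ≤ (pos e : ℝ) := by exact_mod_cast hp1'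
  have hpnR : (pos e : ℝ) ≤ n := by exact_mod_cast hpn
  have hN : (0 : ℝ) ≤ (Fintype.card N : ℝ) := by positivity
  have hps : (pos e : ℝ) * (Fintype.card N + 1) < s := by nlinarith
  have hlt : (pos e : ℝ) < s := by nlinarith
  have hfar : (({e} : Finset N).filter (fun e => s ≤ (pos e : ℝ))) = ∅ := by
    rw [Finset.filter_singleton, if_neg (not_le.mpr hlt)]
  unfold Wt at h1
  rw [hfar] at h1
  simp only [Finset.prod_singleton, Finset.card_empty, pen_zero, neg_zero, Real.exp_zero, mul_one,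
    Finset.card_singleton, pow_one, om, hlt, if_true] at h1
  have hs0 : 0 < s := by linarith
  rw [← inv_pow, inv_div] at h1
  have h2 : (Fintype.card N : ℝ) + 1 < s / (pos e : ℝ) := by
    rw [lt_div_iff₀ (by linarith)]; linarith
  have h3 : s / (pos e : ℝ) ≤ (s / (pos e : ℝ)) ^ 7 := by
    apply le_self_pow₀ (by linarith) (by norm_num)
  have h4 : (orb Γ ({e} : Finset N)).card ≤ Fintype.card N := by
    have : orb Γ ({e} : Finset N) ⊆ (univ : Finset N).image (fun x => ({x} : Finset N)) := by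
      intro T hT
      obtain ⟨σ, _, rfl⟩ := mem_orb.mp hT
      rw [Finset.mem_image]
      exact ⟨σ e, Finset.mem_univ _, by simp⟩
    calc _ ≤ _ := Finset.card_le_card this
      _ ≤ _ := Finset.card_image_le
      _ = _ := Finset.card_univ
  have h5 : ((orb Γ ({e} : Finset N)).card : ℝ) ≤ Fintype.card N := by exact_mod_cast h4
  have h6 : ((orb Γ ({e} : Finset N)).card : ℝ) * p ≤ Fintype.card N := by
    calc _ ≤ ((orb Γ ({e} : Finset N)).card : ℝ) * 1 := mul_le_mul_of_nonneg_left hp1 (by positivity)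
      _ ≤ _ := by linarith
  linarith

end Crest.Agent.KK
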