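import Crest.Agent.KK.Defs
set_option autoImplicit false
open Finset
open scoped Classical

namespace Crest.Agent.KK

theorem sc_pow (S g : ℝ) (hS : 0 ≤ S) (hg : 0 ≤ g) (r : ℕ) :
    S ^ (r + 1) + (r + 1) * g * S ^ r ≤ (S + g) ^ (r + 1) := by
  induction r with
  | zero => simp
  | succ r ih =>
    have h1 : (S + g) ^ (r + 1 + 1) = (S + g) * (S + g) ^ (r + 1) := by ring
    have h2 : (S + g) * (S ^ (r + 1) + (r + 1) * g * S ^ r) ≤ (S + g) * (S + g) ^ (r + 1) :=
      mul_le_mul_of_nonneg_left ih (by linarith)
    have h3 : 0 ≤ ((r : ℝ) + 1) * g * g * S ^ r := by positivity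
    rw [h1]
    push_cast
    have h4 : S ^ (r + 1 + 1) + ((r : ℝ) + 1 + 1) * g * S ^ (r + 1)
        = (S + g) * (S ^ (r + 1) + (r + 1) * g * S ^ r) - ((r : ℝ) + 1) * g * g * S ^ r := by ring
    rw [h4]
    linarith

theorem sum_code_le {α : Type} [DecidableEq α] (s : Finset α) (g : α → ℝ) (hg : ∀ x ∈ s, 0 ≤ g x)
    (r : ℕ) : ∑ t ∈ s.powersetCard r, ∏ x ∈ t, g x ≤ (1 / (r.factorial : ℝ)) * (∑ x ∈ s, g x) ^ r := by
  induction s using Finset.induction_on generalizing r with
  | empty =>
    cases r with
    | zero => simp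
    | succ r =>
      rw [Finset.powersetCard_eq_empty.2 (by simp)]
      simp
  | insert a s ha ih =>
    have hga : 0 ≤ g a := hg a (Finset.mem_insert_self a s)
    have hgs : ∀ x ∈ s, 0 ≤ g x := fun x hx => hg x (Finset.mem_insert_of_mem hx)
    have hS : 0 ≤ ∑ x ∈ s, g x := Finset.sum_nonneg hgs
    cases r with
    | zero => simp
    | succ r =>
      rw [Finset.powersetCard_succ_insert ha]
      have hdisj : Disjoint (powersetCard (r + 1) s) ((powersetCard r s).image (insert a)) := by
        rw [Finset.disjoint_left]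
        intro t ht ht'
        rw [Finset.mem_image] at ht'
        obtain ⟨u, -, rfl⟩ := ht'
        rw [Finset.mem_powersetCard] at ht
        exact ha (ht.1 (Finset.mem_insert_self a u))
      rw [Finset.sum_union hdisj, Finset.sum_image]
      · have h1 := ih hgs (r + 1)
        have h2 := ih hgs r
        have h3 : ∑ t ∈ powersetCard r s, ∏ x ∈ insert a t, g x
            = g a * ∑ t ∈ powersetCard r s, ∏ x ∈ t, g x := by
          rw [Finset.mul_sum]
          apply Finset.sum_congr rfl
          intro t ht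
          rw [Finset.mem_powersetCard] at ht
          rw [Finset.prod_insert (fun h => ha (ht.1 h))]
        rw [h3, Finset.sum_insert ha]
        have h4 := sc_pow (∑ x ∈ s, g x) (g a) hS hga r
        have h5 : g a * ∑ t ∈ powersetCard r s, ∏ x ∈ t, g x
            ≤ g a * ((1 / (r.factorial : ℝ)) * (∑ x ∈ s, g x) ^ r) :=
          mul_le_mul_of_nonneg_left h2 hga
        have hf : (0 : ℝ) < ((r + 1).factorial : ℝ) := by positivity
        have hf' : (0 : ℝ) < (r.factorial : ℝ) := by positivity
        have hfr : ((r + 1).factorial : ℝ) = (r + 1) * (r.factorial : ℝ) := by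
          rw [Nat.factorial_succ]; push_cast; ring
        have h6 : g a * ((1 / (r.factorial : ℝ)) * (∑ x ∈ s, g x) ^ r)
            = (1 / ((r + 1).factorial : ℝ)) * ((r + 1) * g a * (∑ x ∈ s, g x) ^ r) := by
          rw [hfr]; field_simp
        calc _ ≤ (1 / ((r + 1).factorial : ℝ)) * (∑ x ∈ s, g x) ^ (r + 1)
              + (1 / ((r + 1).factorial : ℝ)) * ((r + 1) * g a * (∑ x ∈ s, g x) ^ r) := by
                rw [← h6]; exact add_le_add h1 h5
          _ = (1 / ((r + 1).factorial : ℝ)) * ((∑ x ∈ s, g x) ^ (r + 1)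
              + (r + 1) * g a * (∑ x ∈ s, g x) ^ r) := by ring
          _ ≤ (1 / ((r + 1).factorial : ℝ)) * (∑ x ∈ s, g x + g a) ^ (r + 1) :=
                mul_le_mul_of_nonneg_left h4 (by positivity)
          _ = _ := by rw [add_comm (g a)]
      · intro t ht u hu htu
        have ht' := Finset.mem_powersetCard.1 (Finset.mem_coe.1 ht)
        have hu' := Finset.mem_powersetCard.1 (Finset.mem_coe.1 hu)
        have hat : a ∉ t := fun h => ha (ht'.1 h)
        have hau : a ∉ u := fun h => ha (hu'.1 h)
        have := congrArg (fun z => Finset.erase z a) htu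
        simpa [Finset.erase_insert hat, Finset.erase_insert hau] using this

end Crest.Agent.KK
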