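import Crest.Agent.KK.Key
import Crest.Agent.KK.SumCode
set_option autoImplicit false
open Finset
open scoped Classical

namespace Crest.Agent.KK

variable {N : Type} [Fintype N] [DecidableEq N]

theorem reach_of_cov (Γ : Subgroup (Equiv.Perm N)) (H U : Finset N) (pos : N → ℕ) (n : ℕ)
    (B B' D : ℕ → ℕ → ℝ) (hD : ∀ l i, D l i ≤ B l i - B' l i)
    (hDa : ∀ l c i, l ≤ c → D c i ≤ D l i) {M : ℕ} (h' Z : N → Fin (M + 1))
    (σ : Equiv.Perm N) (hw : Wit H U pos n B B' σ h' Z) (c a : ℕ)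
    (hc : Cov H U pos n B σ h' c a) : Reach n D (low h' Z).card c a := by
  obtain ⟨l, i, h1, h2, h3, h4, h5⟩ := hc
  refine ⟨i, h4, h2, h3, ?_⟩
  have h6 := hw.2.2 l i h2 h3 ⟨l, i, le_rfl, h2, h3, le_rfl, h5⟩
  have h7 : cnt H U pos σ h' l i ≤ cnt H U pos σ Z l i + (low h' Z).card := by
    have h8 : cnt H U pos σ h' l i ≤ cnt H U pos σ Z l i +
        (((H \ U).filter (fun e => pos e ≤ i ∧ l < (h' (σ e) : ℕ) ∧ Z (σ e) < h' (σ e)))).card := by
      unfold cnt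
      rw [← card_union_add_card_inter]
      refine le_trans (card_le_card ?_) (Nat.le_add_right _ _)
      intro e he
      simp only [mem_filter, mem_union] at he ⊢
      obtain ⟨g1, g2, g3⟩ := he
      by_cases hz : Z (σ e) < h' (σ e)
      · right; exact ⟨g1, g2, g3, hz⟩
      · left
        have : Z (σ e) = h' (σ e) := le_antisymm (hw.1 _) (not_lt.mp hz)
        rw [this]; exact ⟨g1, g2, g3⟩
    refine h8.trans (Nat.add_le_add_left ?_ _)
    apply card_le_card_of_injOn σ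
    · intro e he
      have he' := mem_filter.mp (mem_coe.mp he)
      exact mem_coe.mpr (by simp only [low, mem_filter, mem_univ, true_and]; exact he'.2.2.2)
    · exact σ.injective.injOn
  have h9 : (cnt H U pos σ h' l i : ℝ) ≤ cnt H U pos σ Z l i + (low h' Z).card := by
    exact_mod_cast h7
  have := hDa l c i h1
  have := hD l i
  linarith

theorem code_fix (Γ : Subgroup (Equiv.Perm N)) (H U : Finset N) (pos : N → ℕ) (n : ℕ)
    (hinj : Set.InjOn pos (H : Set N)) (hpos : ∀ e ∈ H, 1 ≤ pos e ∧ pos e ≤ n)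
    (B B' D : ℕ → ℕ → ℝ) (hD : ∀ l i, D l i ≤ B l i - B' l i)
    (hDa : ∀ l c i, l ≤ c → D c i ≤ D l i) {M : ℕ} (w : Fin (M + 1) → ℝ) (hw0 : ∀ c, 0 ≤ w c)
    (hwp : ∀ c : Fin (M + 1), (c : ℕ) < M → 0 < w c)
    (f : ℕ → ℝ) (hf : ∀ a, 0 ≤ f a) (r : ℕ) (F : Finset N → ℝ) (hF0 : ∀ T, 0 ≤ F T)
    (hF : ∀ σ ∈ Γ, ∀ T : Finset N, (∀ e ∈ T, σ⁻¹ e ∈ H \ U) → T.card = r →
      F T ≤ ∏ e ∈ T, f (pos (σ⁻¹ e))) (Z : N → Fin (M + 1)) :
    ∑ h ∈ (univ : Finset (N → Fin (M + 1))).filter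
        (fun h => MaxC Γ H U pos n B B' h Z ∧ (low h Z).card = r),
      (∏ e, w (h e)) * F (low h Z)
    ≤ (∏ e, w (Z e)) * ∑ t ∈ (((Icc 1 n) ×ˢ ((univ : Finset (Fin (M + 1))) ×ˢ
        (univ : Finset (Fin (M + 1))))).filter
        (fun x => (x.2.1 : ℕ) < M ∧ Reach n D r (x.2.1 : ℕ) x.1)).powersetCard r,
        ∏ x ∈ t, ((w x.2.1)⁻¹ * f x.1 * w x.2.2) := by
  set 𝒜 := (univ : Finset (N → Fin (M + 1))).filter
        (fun h => MaxC Γ H U pos n B B' h Z ∧ (low h Z).card = r) with h𝒜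
  have mem𝒜 : ∀ h, h ∈ 𝒜 ↔ MaxC Γ H U pos n B B' h Z ∧ (low h Z).card = r := by
    intro h; simp [h𝒜]
  set Codes := (((Icc 1 n) ×ˢ ((univ : Finset (Fin (M + 1))) ×ˢ
        (univ : Finset (Fin (M + 1))))).filter
        (fun x => (x.2.1 : ℕ) < M ∧ Reach n D r (x.2.1 : ℕ) x.1)) with hCodes
  let prof : (N → Fin (M + 1)) → ℕ → ℕ := fun h l =>
    (univ.filter (fun e => (Z e : ℕ) ≤ l ∧ l < (h e : ℕ))).card
  have hex : ∀ π : ℕ → ℕ, ∃ σ : Equiv.Perm N, (∃ h' ∈ 𝒜, prof h' = π) →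
      ∃ h' ∈ 𝒜, prof h' = π ∧ σ ∈ Γ ∧ Wit H U pos n B B' σ h' Z := by
    intro π
    by_cases hh : ∃ h' ∈ 𝒜, prof h' = π
    · obtain ⟨h', h1, h2⟩ := hh
      obtain ⟨σ, hσ, hσ'⟩ := ((mem𝒜 h').mp h1).1.2.1
      exact ⟨σ, fun _ => ⟨h', h1, h2, hσ, hσ'⟩⟩
    · exact ⟨1, fun h => absurd h hh⟩
  choose sg hsg using hex
  have hZle : ∀ h ∈ 𝒜, ∀ e, Z e ≤ h e := by
    intro h hh
    obtain ⟨σ, _, hσ'⟩ := ((mem𝒜 h).mp hh).1.2.1
    exact hσ'.1
  -- key facts
  have hkey : ∀ h ∈ 𝒜, sg (prof h) ∈ Γ ∧ ∀ e ∈ low h Z, (sg (prof h))⁻¹ e ∈ H \ U ∧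
      Reach n D r (Z e : ℕ) (pos ((sg (prof h))⁻¹ e)) := by
    intro h hh
    obtain ⟨h', h1, h2, h3, h4⟩ := hsg (prof h) ⟨h, hh, rfl⟩
    refine ⟨h3, ?_⟩
    intro e he
    simp only [low, mem_filter, mem_univ, true_and] at he
    have hk := key Γ H U pos n B B' h h' Z ((mem𝒜 h).mp hh).1 (sg (prof h)) h3 h4
      (fun l => (congrFun h2 l).symm) e he
    refine ⟨hk.1, ?_⟩
    have := reach_of_cov Γ H U pos n B B' D hD hDa h' Z (sg (prof h)) h4 _ _ hk.2
    rwa [((mem𝒜 h').mp h1).2] at this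
  let cd : (N → Fin (M + 1)) → N → ℕ × Fin (M + 1) × Fin (M + 1) := fun h e =>
    (pos ((sg (prof h))⁻¹ e), Z e, h e)
  let code : (N → Fin (M + 1)) → Finset (ℕ × Fin (M + 1) × Fin (M + 1)) := fun h =>
    (low h Z).image (cd h)
  have hposinj : ∀ h ∈ 𝒜, ∀ e ∈ low h Z, ∀ e' ∈ low h Z,
      pos ((sg (prof h))⁻¹ e) = pos ((sg (prof h))⁻¹ e') → e = e' := by
    intro h hh e he e' he' heq
    have h1 := ((hkey h hh).2 e he).1
    have h2 := ((hkey h hh).2 e' he').1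
    have h3 := hinj (mem_coe.mpr (mem_sdiff.mp h1).1) (mem_coe.mpr (mem_sdiff.mp h2).1) heq
    exact (sg (prof h))⁻¹.injective h3
  have hcdinj : ∀ h ∈ 𝒜, Set.InjOn (cd h) (low h Z : Set N) := by
    intro h hh e he e' he' heq
    have : pos ((sg (prof h))⁻¹ e) = pos ((sg (prof h))⁻¹ e') := by
      have := congrArg Prod.fst heq
      simpa [cd] using this
    exact hposinj h hh e (mem_coe.mp he) e' (mem_coe.mp he') this
  have hcard : ∀ h ∈ 𝒜, (code h).card = r := by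
    intro h hh
    simp only [code]
    rw [card_image_of_injOn (hcdinj h hh)]
    exact ((mem𝒜 h).mp hh).2
  have hmemC : ∀ h ∈ 𝒜, code h ∈ Codes.powersetCard r := by
    intro h hh
    rw [mem_powersetCard]
    refine ⟨?_, hcard h hh⟩
    intro x hx
    simp only [code, mem_image] at hx
    obtain ⟨e, he, rfl⟩ := hx
    have hk := (hkey h hh).2 e he
    have hp := hpos _ (mem_sdiff.mp hk.1).1
    simp only [low, mem_filter, mem_univ, true_and] at he
    simp only [hCodes, cd, mem_filter, mem_product, mem_Icc, mem_univ, and_true]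
    refine ⟨hp, ?_, hk.2⟩
    have h1 : (Z e : ℕ) < (h e : ℕ) := he
    have h2 := (h e).2
    omega
  -- profile from the code
  have hprofcode : ∀ h ∈ 𝒜, ∀ l, prof h l =
      ((code h).filter (fun x => (x.2.1 : ℕ) ≤ l ∧ l < (x.2.2 : ℕ))).card := by
    intro h hh l
    have : (code h).filter (fun x => (x.2.1 : ℕ) ≤ l ∧ l < (x.2.2 : ℕ))
        = (univ.filter (fun e => (Z e : ℕ) ≤ l ∧ l < (h e : ℕ))).image (cd h) := by
      ext x
      simp only [code, mem_filter, mem_image, mem_univ, true_and]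
      constructor
      · rintro ⟨⟨e, he, rfl⟩, h1, h2⟩
        exact ⟨e, ⟨h1, h2⟩, rfl⟩
      · rintro ⟨e, ⟨h1, h2⟩, rfl⟩
        refine ⟨⟨e, ?_, rfl⟩, h1, h2⟩
        simp only [low, mem_filter, mem_univ, true_and]
        rw [Fin.lt_def]; omega
    rw [this, card_image_of_injOn]
    intro e he e' he' heq
    apply hcdinj h hh _ _ heq
    · have := (mem_filter.mp (mem_coe.mp he)).2
      exact mem_coe.mpr (by simp only [low, mem_filter, mem_univ, true_and]; rw [Fin.lt_def]; omega)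
    · have := (mem_filter.mp (mem_coe.mp he')).2
      exact mem_coe.mpr (by simp only [low, mem_filter, mem_univ, true_and]; rw [Fin.lt_def]; omega)
  have hcodeinj : Set.InjOn code (𝒜 : Set (N → Fin (M + 1))) := by
    intro h1 hh1 h2 hh2 heq
    have hh1' := mem_coe.mp hh1
    have hh2' := mem_coe.mp hh2
    have hpeq : prof h1 = prof h2 := by
      funext l
      rw [hprofcode h1 hh1' l, hprofcode h2 hh2' l, heq]
    have hstep : ∀ g1 g2 : N → Fin (M + 1), g1 ∈ 𝒜 → g2 ∈ 𝒜 → prof g1 = prof g2 →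
        code g1 = code g2 → ∀ e ∈ low g1 Z, e ∈ low g2 Z ∧ g1 e = g2 e := by
      intro g1 g2 hg1 hg2 hp hc e he
      have hx : cd g1 e ∈ code g2 := by
        rw [← hc]; exact mem_image_of_mem _ he
      simp only [code, mem_image] at hx
      obtain ⟨e', he', hee⟩ := hx
      have hpp : pos ((sg (prof g2))⁻¹ e') = pos ((sg (prof g1))⁻¹ e) := by
        have := congrArg Prod.fst hee
        simpa [cd] using this
      have hgg : g2 e' = g1 e := by
        have := congrArg (fun x => x.2.2) hee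
        simpa [cd] using this
      rw [← hp] at hpp
      have hA := ((hkey g1 hg1).2 e he).1
      have hB := ((hkey g2 hg2).2 e' he').1
      rw [← hp] at hB
      have h3 := hinj (mem_coe.mpr (mem_sdiff.mp hB).1) (mem_coe.mpr (mem_sdiff.mp hA).1) hpp
      have h4 := (sg (prof g1))⁻¹.injective h3
      subst h4
      exact ⟨he', hgg.symm⟩
    funext e
    by_cases he : e ∈ low h1 Z
    · exact (hstep h1 h2 hh1' hh2' hpeq heq e he).2
    · have he2 : e ∉ low h2 Z := by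
        intro he2
        exact he (hstep h2 h1 hh2' hh1' hpeq.symm heq.symm e he2).1
      simp only [low, mem_filter, mem_univ, true_and, not_lt] at he he2
      exact (le_antisymm he (hZle h1 hh1' e)).trans (le_antisymm he2 (hZle h2 hh2' e)).symm
  -- pointwise bound
  have hpt : ∀ h ∈ 𝒜, (∏ e, w (h e)) * F (low h Z) ≤
      (∏ e, w (Z e)) * ∏ x ∈ code h, ((w x.2.1)⁻¹ * f x.1 * w x.2.2) := by
    intro h hh
    have h1 : ∏ x ∈ code h, ((w x.2.1)⁻¹ * f x.1 * w x.2.2)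
        = ∏ e ∈ low h Z, ((w (Z e))⁻¹ * f (pos ((sg (prof h))⁻¹ e)) * w (h e)) := by
      simp only [code]
      rw [prod_image (hcdinj h hh)]
    have h2 : ∏ e, w (h e) = (∏ e, w (Z e)) * ∏ e ∈ low h Z, ((w (Z e))⁻¹ * w (h e)) := by
      rw [← prod_mul_prod_compl (low h Z) (fun e => w (h e)),
        ← prod_mul_prod_compl (low h Z) (fun e => w (Z e))]
      have h3 : ∏ e ∈ (low h Z)ᶜ, w (h e) = ∏ e ∈ (low h Z)ᶜ, w (Z e) := by
        apply prod_congr rfl
        intro e he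
        simp only [low, mem_compl, mem_filter, mem_univ, true_and, not_lt] at he
        rw [le_antisymm he (hZle h hh e)]
      have h4 : ∏ e ∈ low h Z, w (h e)
          = (∏ e ∈ low h Z, w (Z e)) * ∏ e ∈ low h Z, ((w (Z e))⁻¹ * w (h e)) := by
        rw [← prod_mul_distrib]
        apply prod_congr rfl
        intro e he
        simp only [low, mem_filter, mem_univ, true_and] at he
        have hlt : (Z e : ℕ) < M := by
          have h5 : (Z e : ℕ) < (h e : ℕ) := he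
          have h6 := (h e).2
          omega
        have := (hwp (Z e) hlt).ne'
        field_simp
      rw [h3, h4]; ring
    have h5 : F (low h Z) ≤ ∏ e ∈ low h Z, f (pos ((sg (prof h))⁻¹ e)) :=
      hF _ (hkey h hh).1 _ (fun e he => ((hkey h hh).2 e he).1) ((mem𝒜 h).mp hh).2
    rw [h1, h2]
    have h6 : ∏ e ∈ low h Z, ((w (Z e))⁻¹ * f (pos ((sg (prof h))⁻¹ e)) * w (h e))
        = (∏ e ∈ low h Z, ((w (Z e))⁻¹ * w (h e))) * ∏ e ∈ low h Z, f (pos ((sg (prof h))⁻¹ e)) := by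
      rw [← prod_mul_distrib]
      apply prod_congr rfl
      intro e _; ring
    rw [h6, mul_assoc]
    apply mul_le_mul_of_nonneg_left _ (prod_nonneg (fun e _ => hw0 _))
    apply mul_le_mul_of_nonneg_left h5
    exact prod_nonneg (fun e _ => mul_nonneg (inv_nonneg.mpr (hw0 _)) (hw0 _))
  calc ∑ h ∈ 𝒜, (∏ e, w (h e)) * F (low h Z)
      ≤ ∑ h ∈ 𝒜, (∏ e, w (Z e)) * ∏ x ∈ code h, ((w x.2.1)⁻¹ * f x.1 * w x.2.2) :=
        sum_le_sum hpt
    _ = (∏ e, w (Z e)) * ∑ h ∈ 𝒜, ∏ x ∈ code h, ((w x.2.1)⁻¹ * f x.1 * w x.2.2) := by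
        rw [mul_sum]
    _ = (∏ e, w (Z e)) * ∑ t ∈ 𝒜.image code, ∏ x ∈ t, ((w x.2.1)⁻¹ * f x.1 * w x.2.2) := by
        rw [sum_image hcodeinj]
    _ ≤ _ := by
        apply mul_le_mul_of_nonneg_left _ (prod_nonneg (fun e _ => hw0 _))
        apply sum_le_sum_of_subset_of_nonneg
        · intro t ht
          obtain ⟨h, hh, rfl⟩ := mem_image.mp ht
          exact hmemC h hh
        · intro t _ _
          exact prod_nonneg (fun x _ => mul_nonneg (mul_nonneg (inv_nonneg.mpr (hw0 _)) (hf _)) (hw0 _))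

theorem code_bound (Γ : Subgroup (Equiv.Perm N)) (H U : Finset N) (pos : N → ℕ) (n : ℕ)
    (hinj : Set.InjOn pos (H : Set N)) (hpos : ∀ e ∈ H, 1 ≤ pos e ∧ pos e ≤ n)
    (B B' D : ℕ → ℕ → ℝ) (hD : ∀ l i, D l i ≤ B l i - B' l i)
    (hDa : ∀ l c i, l ≤ c → D c i ≤ D l i) {M : ℕ} (w : Fin (M + 1) → ℝ) (hw0 : ∀ c, 0 ≤ w c)
    (hw1 : ∑ c, w c = 1) (hwp : ∀ c : Fin (M + 1), (c : ℕ) < M → 0 < w c)
    (f : ℕ → ℝ) (hf : ∀ a, 0 ≤ f a) (r : ℕ) (F : Finset N → ℝ) (hF0 : ∀ T, 0 ≤ F T)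
    (hF : ∀ σ ∈ Γ, ∀ T : Finset N, (∀ e ∈ T, σ⁻¹ e ∈ H \ U) → T.card = r →
      F T ≤ ∏ e ∈ T, f (pos (σ⁻¹ e))) :
    ∑ h : N → Fin (M + 1), ∑ Z ∈ (univ : Finset (N → Fin (M + 1))).filter
        (fun Z => MaxC Γ H U pos n B B' h Z ∧ (low h Z).card = r),
      (∏ e, w (h e)) * F (low h Z)
    ≤ (1 / (r.factorial : ℝ)) * (∑ c ∈ (univ : Finset (Fin (M + 1))).filter (fun c : Fin (M + 1) => (c : ℕ) < M),
        (w c)⁻¹ * ∑ a ∈ (Icc 1 n).filter (fun a => Reach n D r (c : ℕ) a), f a) ^ r := by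
  have hswap : ∑ h : N → Fin (M + 1), ∑ Z ∈ (univ : Finset (N → Fin (M + 1))).filter
        (fun Z => MaxC Γ H U pos n B B' h Z ∧ (low h Z).card = r),
      (∏ e, w (h e)) * F (low h Z)
      = ∑ Z : N → Fin (M + 1), ∑ h ∈ (univ : Finset (N → Fin (M + 1))).filter
        (fun h => MaxC Γ H U pos n B B' h Z ∧ (low h Z).card = r),
      (∏ e, w (h e)) * F (low h Z) := by
    simp_rw [sum_filter]
    rw [sum_comm]
  rw [hswap]
  set Codes := (((Icc 1 n) ×ˢ ((univ : Finset (Fin (M + 1))) ×ˢ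
        (univ : Finset (Fin (M + 1))))).filter
        (fun x => (x.2.1 : ℕ) < M ∧ Reach n D r (x.2.1 : ℕ) x.1)) with hCodes
  have hgs : ∑ x ∈ Codes, ((w x.2.1)⁻¹ * f x.1 * w x.2.2)
      = ∑ c ∈ (univ : Finset (Fin (M + 1))).filter (fun c : Fin (M + 1) => (c : ℕ) < M),
        (w c)⁻¹ * ∑ a ∈ (Icc 1 n).filter (fun a => Reach n D r (c : ℕ) a), f a := by
    rw [hCodes, sum_filter, sum_product]
    simp_rw [sum_product]
    rw [sum_comm, sum_filter]
    apply sum_congr rfl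
    intro c _
    by_cases hc : (c : ℕ) < M
    · rw [if_pos hc, mul_sum, sum_filter]
      apply sum_congr rfl
      intro a _
      by_cases hr : Reach n D r (c : ℕ) a
      · simp only [hc, hr, and_self, if_true]
        rw [← mul_sum, hw1, mul_one]
      · simp only [hc, hr, and_false, if_false, sum_const_zero]
    · rw [if_neg hc]
      simp only [hc, false_and, if_false, sum_const_zero]
  have hZ1 : ∑ Z : N → Fin (M + 1), ∏ e, w (Z e) = 1 := by
    have := Finset.prod_univ_sum (fun _ : N => (univ : Finset (Fin (M + 1)))) (fun _ c => w c)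
    rw [Fintype.piFinset_univ] at this
    rw [← this]
    simp [hw1]
  have hg0 : ∀ x ∈ Codes, 0 ≤ ((w x.2.1)⁻¹ * f x.1 * w x.2.2) := fun x _ =>
    mul_nonneg (mul_nonneg (inv_nonneg.mpr (hw0 _)) (hf _)) (hw0 _)
  have hsc := sum_code_le Codes (fun x => ((w x.2.1)⁻¹ * f x.1 * w x.2.2)) hg0 r
  calc _ ≤ ∑ Z : N → Fin (M + 1), (∏ e, w (Z e)) *
        ((1 / (r.factorial : ℝ)) * (∑ x ∈ Codes, ((w x.2.1)⁻¹ * f x.1 * w x.2.2)) ^ r) := by
        apply sum_le_sum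
        intro Z _
        refine (code_fix Γ H U pos n hinj hpos B B' D hD hDa w hw0 hwp f hf r F hF0 hF Z).trans ?_
        exact mul_le_mul_of_nonneg_left hsc (prod_nonneg (fun e _ => hw0 _))
    _ = _ := by
        rw [← sum_mul, hZ1, one_mul, hgs]

end Crest.Agent.KK
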