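import Mathlib
set_option autoImplicit false
open Finset
open scoped Classical

namespace Crest.Agent.KK

variable {N : Type} [Fintype N] [DecidableEq N]

/-- # elements of `H \ U` in the first `i` positions whose image under `σ` has level `> l` -/
noncomputable def cnt (H U : Finset N) (pos : N → ℕ) {M : ℕ} (σ : Equiv.Perm N)
    (h : N → Fin (M + 1)) (l i : ℕ) : ℕ :=
  ((H \ U).filter (fun e => pos e ≤ i ∧ l < (h (σ e) : ℕ))).card

def Good (H U : Finset N) (pos : N → ℕ) (n : ℕ) (B : ℕ → ℕ → ℝ) {M : ℕ} (σ : Equiv.Perm N)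
    (h : N → Fin (M + 1)) : Prop :=
  ∀ l i : ℕ, 1 ≤ i → i ≤ n → (cnt H U pos σ h l i : ℝ) < B l i

/-- position `a` is below the level-`c` staircase of `(σ,h)` -/
def Cov (H U : Finset N) (pos : N → ℕ) (n : ℕ) (B : ℕ → ℕ → ℝ) {M : ℕ} (σ : Equiv.Perm N)
    (h : N → Fin (M + 1)) (c a : ℕ) : Prop :=
  ∃ l i : ℕ, l ≤ c ∧ 1 ≤ i ∧ i ≤ n ∧ a ≤ i ∧ B l i ≤ (cnt H U pos σ h l i : ℝ)

/-- `σ` witnesses that `Z` is a configuration for `h` -/
def Wit (H U : Finset N) (pos : N → ℕ) (n : ℕ) (B B' : ℕ → ℕ → ℝ) {M : ℕ} (σ : Equiv.Perm N)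
    (h Z : N → Fin (M + 1)) : Prop :=
  (∀ e, Z e ≤ h e) ∧
  (∀ e, Z e < h e → σ⁻¹ e ∈ H \ U ∧ Cov H U pos n B σ h (Z e) (pos (σ⁻¹ e))) ∧
  (∀ l i : ℕ, 1 ≤ i → i ≤ n → Cov H U pos n B σ h l i → (cnt H U pos σ Z l i : ℝ) < B' l i)

def Conf (Γ : Subgroup (Equiv.Perm N)) (H U : Finset N) (pos : N → ℕ) (n : ℕ) (B B' : ℕ → ℕ → ℝ)
    {M : ℕ} (h Z : N → Fin (M + 1)) : Prop :=
  ∃ σ ∈ Γ, Wit H U pos n B B' σ h Z

/-- all copies are bad -/
def Bad (Γ : Subgroup (Equiv.Perm N)) (H U : Finset N) (pos : N → ℕ) (n : ℕ) (B : ℕ → ℕ → ℝ)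
    {M : ℕ} (h : N → Fin (M + 1)) : Prop :=
  ∀ σ ∈ Γ, ¬ Good H U pos n B σ h

/-- maximal configurations of bad `h` -/
def MaxC (Γ : Subgroup (Equiv.Perm N)) (H U : Finset N) (pos : N → ℕ) (n : ℕ) (B B' : ℕ → ℕ → ℝ)
    {M : ℕ} (h Z : N → Fin (M + 1)) : Prop :=
  Bad Γ H U pos n B h ∧ Conf Γ H U pos n B B' h Z ∧
    ∀ Z', Conf Γ H U pos n B B' h Z' → (∀ e, Z e ≤ Z' e) → Z' = Z

/-- the lowered set -/
noncomputable def low {M : ℕ} (h Z : N → Fin (M + 1)) : Finset N := univ.filter (fun e => Z e < h e)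

/-- product probability of an event -/
noncomputable def Pr {M : ℕ} (w : Fin (M + 1) → ℝ) (A : (N → Fin (M + 1)) → Prop) : ℝ :=
  ∑ h ∈ (univ : Finset (N → Fin (M + 1))).filter A, ∏ e, w (h e)

/-- orbit of a set -/
noncomputable def orb (Γ : Subgroup (Equiv.Perm N)) (T : Finset N) : Finset (Finset N) :=
  univ.filter (fun T' => ∃ σ ∈ Γ, T.image σ = T')

/-- set-wise stabiliser inside `Γ` -/
def stab (Γ : Subgroup (Equiv.Perm N)) (S : Finset N) : Subgroup (Equiv.Perm N) where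
  carrier := {σ | σ ∈ Γ ∧ S.image σ = S}
  mul_mem' := by
    rintro a b ⟨ha, ha'⟩ ⟨hb, hb'⟩
    refine ⟨Γ.mul_mem ha hb, ?_⟩
    have : S.image (⇑(a * b)) = (S.image b).image a := by
      rw [Finset.image_image]; rfl
    rw [this, hb', ha']
  one_mem' := by
    refine ⟨Γ.one_mem, ?_⟩
    simp
  inv_mem' := by
    rintro a ⟨ha, ha'⟩
    refine ⟨Γ.inv_mem ha, ?_⟩
    conv_lhs => rw [← ha']
    rw [Finset.image_image]
    have : (⇑(a⁻¹) ∘ ⇑a) = id := by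
      funext x; simp
    rw [this]; simp

/-- reachability of position `a` at level `c` with `r` lowered elements -/
def Reach (n : ℕ) (D : ℕ → ℕ → ℝ) (r c a : ℕ) : Prop := ∃ i : ℕ, a ≤ i ∧ 1 ≤ i ∧ i ≤ n ∧ D c i ≤ r

/-- penalty: `m + (1/2) m log (1 + 64 s / m)` -/
noncomputable def Pen (s : ℝ) (m : ℕ) : ℝ := m + (1 / 2) * m * Real.log (1 + 64 * s / m)

/-- weight of positions -/
noncomputable def om (s : ℝ) (a : ℕ) : ℝ := if (a : ℝ) < s then (a / s) ^ 7 else 1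

/-- lower bound function for orbits -/
noncomputable def Wt (pos : N → ℕ) (s : ℝ) (D : Finset N) : ℝ :=
  (∏ e ∈ D, (om s (pos e))⁻¹) *
    Real.exp (-Pen s (D.filter (fun e => s ≤ (pos e : ℝ))).card)

/-- property P_s -/
def PropP (Γ : Subgroup (Equiv.Perm N)) (H U : Finset N) (pos : N → ℕ) (p s : ℝ) : Prop :=
  ∀ D : Finset N, D ⊆ H \ U → Wt pos s D ≤ ((orb Γ D).card : ℝ) * p ^ D.card

noncomputable def beta (l : ℕ) : ℝ := (1 / 8) * (1 / 4) ^ l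

/-- threshold increment at stage `s` -/
noncomputable def eps (s : ℝ) (i : ℕ) : ℝ :=
  if (i : ℝ) ≤ s then (1 / 6) * (i / s) else (1 / 6) * Real.sqrt (s / i)

/-- thresholds at stage `j` (stages `2^j`, ..., `2^(J-1)`) -/
noncomputable def thr (J j : ℕ) (l i : ℕ) : ℝ :=
  beta l * i * (1 + ∑ k ∈ Finset.Ico j J, eps (2 ^ k) i)

end Crest.Agent.KK
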