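import Crest.Agent.KK.Defs
set_option autoImplicit false
open Finset
open scoped Classical

namespace Crest.Agent.KK

variable {N : Type} [Fintype N] [DecidableEq N]

theorem Cov.mono {H U : Finset N} {pos : N → ℕ} {n : ℕ} {B : ℕ → ℕ → ℝ} {M : ℕ}
    {σ : Equiv.Perm N} {h : N → Fin (M + 1)} {c c' a a' : ℕ}
    (hc : Cov H U pos n B σ h c a) (hcc : c ≤ c') (haa : a' ≤ a) :
    Cov H U pos n B σ h c' a' := by
  obtain ⟨l, i, h1, h2, h3, h4, h5⟩ := hc
  exact ⟨l, i, h1.trans hcc, h2, h3, haa.trans h4, h5⟩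

theorem key (Γ : Subgroup (Equiv.Perm N)) (H U : Finset N) (pos : N → ℕ) (n : ℕ)
    (B B' : ℕ → ℕ → ℝ) {M : ℕ} (h h' Z : N → Fin (M + 1))
    (hm : MaxC Γ H U pos n B B' h Z)
    (σ : Equiv.Perm N) (hσ : σ ∈ Γ) (hw : Wit H U pos n B B' σ h' Z)
    (hprof : ∀ l : ℕ, (univ.filter (fun e => (Z e : ℕ) ≤ l ∧ l < (h e : ℕ))).card
      = (univ.filter (fun e => (Z e : ℕ) ≤ l ∧ l < (h' e : ℕ))).card) :
    ∀ e, Z e < h e → σ⁻¹ e ∈ H \ U ∧ Cov H U pos n B σ h' (Z e) (pos (σ⁻¹ e)) := by
  obtain ⟨hbad, hconf, hmax⟩ := hm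
  obtain ⟨σ0, hσ0, hZ0, -, -⟩ := hconf
  obtain ⟨hw1, hw2, hw3⟩ := hw
  -- Claim 1
  have claim : ∀ l i : ℕ, 1 ≤ i → i ≤ n → B l i ≤ (cnt H U pos σ h l i : ℝ) →
      Cov H U pos n B σ h' l i := by
    intro l i hi1 hin hB
    by_contra hcon
    have hlt : (cnt H U pos σ h' l i : ℝ) < B l i := by
      by_contra hge
      exact hcon ⟨l, i, le_rfl, hi1, hin, le_rfl, not_lt.mp hge⟩
    have hle : cnt H U pos σ h l i ≤ cnt H U pos σ h' l i := by
      -- split
      set A : Finset N := (H \ U).filter (fun e => pos e ≤ i) with hA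
      have e1 : cnt H U pos σ h l i = (A.filter (fun e => l < (Z (σ e) : ℕ))).card
          + (A.filter (fun e => (Z (σ e) : ℕ) ≤ l ∧ l < (h (σ e) : ℕ))).card := by
        rw [← card_union_of_disjoint]
        · unfold cnt
          congr 1
          ext e
          simp only [hA, mem_filter, mem_union]
          have hz := hZ0 (σ e)
          rw [Fin.le_def] at hz
          constructor
          · rintro ⟨h1, h2, h3⟩
            by_cases h4 : l < (Z (σ e) : ℕ)
            · left; exact ⟨⟨h1, h2⟩, h4⟩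
            · right; exact ⟨⟨h1, h2⟩, not_lt.mp h4, h3⟩
          · rintro (⟨⟨h1, h2⟩, h3⟩ | ⟨⟨h1, h2⟩, h3, h4⟩)
            · exact ⟨h1, h2, lt_of_lt_of_le h3 hz⟩
            · exact ⟨h1, h2, h4⟩
        · rw [disjoint_left]
          intro e he he'
          simp only [mem_filter] at he he'
          omega
      have e2 : cnt H U pos σ h' l i = (A.filter (fun e => l < (Z (σ e) : ℕ))).card
          + (A.filter (fun e => (Z (σ e) : ℕ) ≤ l ∧ l < (h' (σ e) : ℕ))).card := by
        rw [← card_union_of_disjoint]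
        · unfold cnt
          congr 1
          ext e
          simp only [hA, mem_filter, mem_union]
          have hz := hw1 (σ e)
          rw [Fin.le_def] at hz
          constructor
          · rintro ⟨h1, h2, h3⟩
            by_cases h4 : l < (Z (σ e) : ℕ)
            · left; exact ⟨⟨h1, h2⟩, h4⟩
            · right; exact ⟨⟨h1, h2⟩, not_lt.mp h4, h3⟩
          · rintro (⟨⟨h1, h2⟩, h3⟩ | ⟨⟨h1, h2⟩, h3, h4⟩)
            · exact ⟨h1, h2, lt_of_lt_of_le h3 hz⟩
            · exact ⟨h1, h2, h4⟩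
        · rw [disjoint_left]
          intro e he he'
          simp only [mem_filter] at he he'
          omega
      have f1 : (A.filter (fun e => (Z (σ e) : ℕ) ≤ l ∧ l < (h (σ e) : ℕ))).card
          ≤ (univ.filter (fun e => (Z e : ℕ) ≤ l ∧ l < (h e : ℕ))).card := by
        apply card_le_card_of_injOn σ
        · intro e he
          simp only [coe_filter, Set.mem_setOf_eq, mem_univ, true_and] at he ⊢
          exact he.2
        · exact σ.injective.injOn
      have f2 : (univ.filter (fun e => (Z e : ℕ) ≤ l ∧ l < (h' e : ℕ))).card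
          ≤ (A.filter (fun e => (Z (σ e) : ℕ) ≤ l ∧ l < (h' (σ e) : ℕ))).card := by
        apply card_le_card_of_injOn (⇑(σ⁻¹))
        · intro e he
          simp only [coe_filter, Set.mem_setOf_eq, mem_univ, true_and] at he ⊢
          obtain ⟨g1, g2⟩ := he
          have hlt' : Z e < h' e := by rw [Fin.lt_def]; omega
          obtain ⟨k1, k2⟩ := hw2 e hlt'
          obtain ⟨l', i', a1, a2, a3, a4, a5⟩ := k2
          have hii : i' ≤ i := by
            by_contra hgt
            exact hcon ⟨l', i', a1.trans g1, a2, a3, by omega, a5⟩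
          refine ⟨?_, ?_⟩
          · rw [hA, mem_filter]
            exact ⟨k1, a4.trans hii⟩
          · simpa using ⟨g1, g2⟩
        · exact (σ⁻¹).injective.injOn
      rw [e1, e2]
      have := hprof l
      omega
    have : (cnt H U pos σ h l i : ℝ) ≤ (cnt H U pos σ h' l i : ℝ) := by exact_mod_cast hle
    linarith
  have covle : ∀ c a : ℕ, Cov H U pos n B σ h c a → Cov H U pos n B σ h' c a := by
    rintro c a ⟨l, i, h1, h2, h3, h4, h5⟩
    exact (claim l i h2 h3 h5).mono h1 h4
  -- define Z'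
  let P : N → Prop := fun e => Z e < h e ∧ σ⁻¹ e ∈ H \ U ∧
    ∃ c : ℕ, c < (h e : ℕ) ∧ Cov H U pos n B σ h c (pos (σ⁻¹ e))
  let c0 : ∀ e, P e → ℕ := fun e hp => Nat.find hp.2.2
  have hc0lt : ∀ e (hp : P e), c0 e hp < (h e : ℕ) := fun e hp => (Nat.find_spec hp.2.2).1
  have hc0cov : ∀ e (hp : P e), Cov H U pos n B σ h (c0 e hp) (pos (σ⁻¹ e)) :=
    fun e hp => (Nat.find_spec hp.2.2).2
  have hc0min : ∀ e (hp : P e) (c : ℕ), c < (h e : ℕ) → Cov H U pos n B σ h c (pos (σ⁻¹ e)) →
      c0 e hp ≤ c := fun e hp c h1 h2 => Nat.find_min' hp.2.2 ⟨h1, h2⟩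
  let Z' : N → Fin (M + 1) := fun e =>
    if hp : P e then max (Z e) ⟨c0 e hp, (hc0lt e hp).trans (h e).2⟩ else h e
  have hZ'1 : ∀ e (hp : P e), (Z' e : ℕ) = max (Z e : ℕ) (c0 e hp) := by
    intro e hp
    simp only [Z', dif_pos hp]
    rcases le_total (Z e) (⟨c0 e hp, (hc0lt e hp).trans (h e).2⟩ : Fin (M + 1)) with hh | hh
    · rw [max_eq_right hh]
      rw [Fin.le_def] at hh
      exact (max_eq_right hh).symm
    · rw [max_eq_left hh]
      rw [Fin.le_def] at hh
      exact (max_eq_left hh).symm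
  have hZ'2 : ∀ e, ¬ P e → Z' e = h e := by
    intro e hp
    simp only [Z', dif_neg hp]
  have hZZ' : ∀ e, Z e ≤ Z' e := by
    intro e
    by_cases hp : P e
    · rw [Fin.le_def, hZ'1 e hp]; exact le_max_left _ _
    · rw [hZ'2 e hp]; exact hZ0 e
  have hconf' : Conf Γ H U pos n B B' h Z' := by
    refine ⟨σ, hσ, ?_, ?_, ?_⟩
    · intro e
      by_cases hp : P e
      · rw [Fin.le_def, hZ'1 e hp]
        have := hp.1
        rw [Fin.lt_def] at this
        exact max_le this.le (hc0lt e hp).le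
      · rw [hZ'2 e hp]
    · intro e he
      by_cases hp : P e
      · refine ⟨hp.2.1, ?_⟩
        rw [hZ'1 e hp]
        exact (hc0cov e hp).mono (le_max_right _ _) le_rfl
      · rw [hZ'2 e hp] at he
        exact absurd he (lt_irrefl _)
    · intro l i hi1 hin hcov
      have h1 := hw3 l i hi1 hin (covle l i hcov)
      refine lt_of_le_of_lt ?_ h1
      have : cnt H U pos σ Z' l i ≤ cnt H U pos σ Z l i := by
        unfold cnt
        apply card_le_card
        intro e he
        simp only [mem_filter] at he ⊢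
        obtain ⟨g1, g2, g3⟩ := he
        refine ⟨g1, g2, ?_⟩
        have hcov' : Cov H U pos n B σ h l (pos e) := hcov.mono le_rfl g2
        have hσe : σ⁻¹ (σ e) = e := by simp
        by_cases hp : P (σ e)
        · rw [hZ'1 _ hp] at g3
          by_cases hl : l < (h (σ e) : ℕ)
          · have := hc0min (σ e) hp l hl (by rw [hσe]; exact hcov')
            rcases lt_max_iff.mp g3 with h5 | h5
            · exact h5
            · omega
          · have h6 := hc0lt (σ e) hp
            rcases lt_max_iff.mp g3 with h5 | h5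
            · exact h5
            · omega
        · rw [hZ'2 _ hp] at g3
          by_cases hz : Z (σ e) < h (σ e)
          · exfalso
            apply hp
            exact ⟨hz, by rw [hσe]; exact g1, l, g3, by rw [hσe]; exact hcov'⟩
          · have : Z (σ e) = h (σ e) := le_antisymm (hZ0 _) (not_lt.mp hz)
            rw [this]; exact g3
      exact_mod_cast this
  have hEq := hmax Z' hconf' hZZ'
  intro e he
  have hp : P e := by
    by_contra hp
    have h1 := hZ'2 e hp
    rw [hEq] at h1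
    rw [h1] at he
    exact lt_irrefl _ he
  have h1 := hZ'1 e hp
  rw [hEq] at h1
  refine ⟨hp.2.1, covle _ _ ?_⟩
  rw [h1]
  exact (hc0cov e hp).mono (le_max_right _ _) le_rfl

theorem exLow (Γ : Subgroup (Equiv.Perm N)) (H U S : Finset N) (hS : S ⊆ H \ U) (pos : N → ℕ)
    (n : ℕ) (hpos : ∀ e ∈ H, 1 ≤ pos e ∧ pos e ≤ n)
    (B B' : ℕ → ℕ → ℝ) (hB : ∀ l i, B' l i ≤ B l i) {M : ℕ} (h : N → Fin (M + 1))
    (hbad : Bad Γ H U pos n B h) (σ : Equiv.Perm N) (hσ : σ ∈ Γ) (hσS : S.image σ = S)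
    (hg : Good H (U ∪ S) pos n B' σ h) :
    ∃ Z, MaxC Γ H U pos n B B' h Z ∧ low h Z ⊆ S ∧ (low h Z).Nonempty := by
  have hmemS : ∀ e, e ∈ S → σ e ∈ S := by
    intro e he
    rw [← hσS]; exact mem_image_of_mem _ he
  have hmemS' : ∀ e, e ∈ S → σ⁻¹ e ∈ S := by
    intro e he
    rw [← hσS] at he
    obtain ⟨x, hx, rfl⟩ := mem_image.mp he
    simpa using hx
  let P : N → Prop := fun e => e ∈ S ∧
    ∃ c : ℕ, c < (h e : ℕ) ∧ Cov H U pos n B σ h c (pos (σ⁻¹ e))
  let c0 : ∀ e, P e → ℕ := fun e hp => Nat.find hp.2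
  have hc0lt : ∀ e (hp : P e), c0 e hp < (h e : ℕ) := fun e hp => (Nat.find_spec hp.2).1
  have hc0cov : ∀ e (hp : P e), Cov H U pos n B σ h (c0 e hp) (pos (σ⁻¹ e)) :=
    fun e hp => (Nat.find_spec hp.2).2
  have hc0min : ∀ e (hp : P e) (c : ℕ), c < (h e : ℕ) → Cov H U pos n B σ h c (pos (σ⁻¹ e)) →
      c0 e hp ≤ c := fun e hp c h1 h2 => Nat.find_min' hp.2 ⟨h1, h2⟩
  let Z0 : N → Fin (M + 1) := fun e =>
    if hp : P e then ⟨c0 e hp, (hc0lt e hp).trans (h e).2⟩ else h e
  have hZ1 : ∀ e (hp : P e), (Z0 e : ℕ) = c0 e hp := by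
    intro e hp
    simp only [Z0, dif_pos hp]
  have hZ2 : ∀ e, ¬ P e → Z0 e = h e := by
    intro e hp
    simp only [Z0, dif_neg hp]
  have hconf : Conf Γ H U pos n B B' h Z0 := by
    refine ⟨σ, hσ, ?_, ?_, ?_⟩
    · intro e
      by_cases hp : P e
      · rw [Fin.le_def, hZ1 e hp]; exact (hc0lt e hp).le
      · rw [hZ2 e hp]
    · intro e he
      by_cases hp : P e
      · refine ⟨hS (hmemS' e hp.1), ?_⟩
        rw [hZ1 e hp]; exact hc0cov e hp
      · rw [hZ2 e hp] at he
        exact absurd he (lt_irrefl _)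
    · intro l i hi1 hin hcov
      refine lt_of_le_of_lt ?_ (hg l i hi1 hin)
      have : cnt H U pos σ Z0 l i ≤ cnt H (U ∪ S) pos σ h l i := by
        unfold cnt
        apply card_le_card
        intro e he
        simp only [mem_filter, mem_sdiff, mem_union, not_or] at he ⊢
        obtain ⟨⟨g1, g1'⟩, g2, g3⟩ := he
        have hσe : σ⁻¹ (σ e) = e := by simp
        have hcov' : Cov H U pos n B σ h l (pos e) := hcov.mono le_rfl g2
        have heS : e ∉ S := by
          intro heS
          by_cases hp : P (σ e)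
          · rw [hZ1 _ hp] at g3
            by_cases hl : l < (h (σ e) : ℕ)
            · have := hc0min (σ e) hp l hl (by rw [hσe]; exact hcov')
              omega
            · have h6 := hc0lt (σ e) hp
              omega
          · rw [hZ2 _ hp] at g3
            apply hp
            exact ⟨hmemS e heS, l, g3, by rw [hσe]; exact hcov'⟩
        refine ⟨⟨g1, g1', heS⟩, g2, ?_⟩
        by_cases hp : P (σ e)
        · rw [hZ1 _ hp] at g3
          exact g3.trans (hc0lt _ hp)
        · rw [hZ2 _ hp] at g3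
          exact g3
      exact_mod_cast this
  -- maximal element above Z0
  obtain ⟨Z, hZ, hZmax⟩ := ((univ : Finset (N → Fin (M + 1))).filter
    (fun Z => Conf Γ H U pos n B B' h Z ∧ ∀ e, Z0 e ≤ Z e)).exists_max_image
    (fun Z => ∑ e, (Z e : ℕ)) ⟨Z0, by simp [hconf]⟩
  simp only [mem_filter, mem_univ, true_and] at hZ hZmax
  have hmaxC : MaxC Γ H U pos n B B' h Z := by
    refine ⟨hbad, hZ.1, ?_⟩
    intro Z' hZ' hle
    have h1 := hZmax Z' ⟨hZ', fun e => (hZ.2 e).trans (hle e)⟩
    by_contra hne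
    obtain ⟨e, he⟩ := Function.ne_iff.mp hne
    have h2 : ∑ e, (Z e : ℕ) < ∑ e, (Z' e : ℕ) := by
      apply sum_lt_sum
      · intro x _; exact_mod_cast hle x
      · refine ⟨e, mem_univ _, ?_⟩
        have := hle e
        have h3 : Z e < Z' e := lt_of_le_of_ne this (Ne.symm he)
        exact_mod_cast h3
    omega
  refine ⟨Z, hmaxC, ?_, ?_⟩
  · intro e he
    simp only [low, mem_filter, mem_univ, true_and] at he
    by_contra heS
    have hp : ¬ P e := fun hp => heS hp.1
    have h1 := hZ.2 e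
    rw [hZ2 e hp] at h1
    exact absurd he (not_lt.mpr h1)
  · by_contra hne
    rw [not_nonempty_iff_eq_empty] at hne
    obtain ⟨σ1, hσ1, w1, w2, w3⟩ := hmaxC.2.1
    have hZh : Z = h := by
      funext e
      have : e ∉ low h Z := by rw [hne]; simp
      simp only [low, mem_filter, mem_univ, true_and, not_lt] at this
      exact le_antisymm (w1 e) this
    subst hZh
    have := hbad σ1 hσ1
    apply this
    intro l i hi1 hin
    by_contra hge
    have h1 := w3 l i hi1 hin ⟨l, i, le_rfl, hi1, hin, le_rfl, not_lt.mp hge⟩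
    have h2 := hB l i
    linarith [not_lt.mp hge]

end Crest.Agent.KK
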