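import Crest.Agent.KK.Defs
set_option autoImplicit false
open Finset
open scoped Classical

namespace Crest.Agent.KK

theorem eps_sum (i : ℕ) (hi : 1 ≤ i) (J : ℕ) :
    ((i : ℝ) ≤ 2 ^ J → ∑ k ∈ range J, eps (2 ^ k) i ≤ 1 - (1 / 3) * (i / 2 ^ J)) ∧
    ((2 : ℝ) ^ J < i → ∑ k ∈ range J, eps (2 ^ k) i ≤ (5 / 12) * Real.sqrt (2 ^ J / i)) := by
  have hi0 : (0 : ℝ) < i := by exact_mod_cast hi
  induction J with
  | zero =>
    constructor
    · intro h
      simp only [range_zero, sum_empty, pow_zero, div_one]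
      simp only [pow_zero] at h
      linarith
    · intro h
      simp only [range_zero, sum_empty]
      positivity
  | succ J ih =>
    obtain ⟨ih1, ih2⟩ := ih
    have hp : (0 : ℝ) < 2 ^ J := by positivity
    rw [sum_range_succ]
    by_cases hJ : (i : ℝ) ≤ 2 ^ J
    · have he : eps (2 ^ J) i = (1 / 6) * (i / 2 ^ J) := by
        unfold eps; rw [if_pos hJ]
      have h1 := ih1 hJ
      constructor
      · intro _
        rw [he]
        have e : (i : ℝ) / 2 ^ (J + 1) = (1 / 2) * (i / 2 ^ J) := by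
          rw [pow_succ]; field_simp
        rw [e]; linarith
      · intro h
        exfalso
        have : (2 : ℝ) ^ (J + 1) = 2 * 2 ^ J := by ring
        rw [this] at h
        linarith
    · have hJ' : (2 : ℝ) ^ J < i := not_le.mp hJ
      have he : eps (2 ^ J) i = (1 / 6) * Real.sqrt (2 ^ J / i) := by
        unfold eps; rw [if_neg hJ]
      have h2 := ih2 hJ'
      have hs : Real.sqrt (2 ^ J / i) ≤ 1 := by
        rw [Real.sqrt_le_one]
        rw [div_le_one hi0]; exact hJ'.le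
      have hs0 : 0 ≤ Real.sqrt ((2 : ℝ) ^ J / i) := Real.sqrt_nonneg _
      rw [he]
      constructor
      · intro h
        have : (i : ℝ) / 2 ^ (J + 1) ≤ 1 := by
          rw [div_le_one (by positivity)]; exact h
        linarith
      · intro _
        have e : Real.sqrt ((2 : ℝ) ^ (J + 1) / i) = Real.sqrt 2 * Real.sqrt (2 ^ J / i) := by
          rw [← Real.sqrt_mul (by norm_num)]
          congr 1; rw [pow_succ]; ring
        have h14 : (1.4 : ℝ) ≤ Real.sqrt 2 := by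
          apply Real.le_sqrt_of_sq_le; norm_num
        rw [e]
        nlinarith

theorem eps_sum_le_one (i : ℕ) (hi : 1 ≤ i) (J : ℕ) : ∑ k ∈ range J, eps (2 ^ k) i ≤ 1 := by
  obtain ⟨h1, h2⟩ := eps_sum i hi J
  have hi0 : (0 : ℝ) < i := by exact_mod_cast hi
  by_cases hJ : (i : ℝ) ≤ 2 ^ J
  · have := h1 hJ
    have h3 : (0 : ℝ) ≤ i / 2 ^ J := by positivity
    linarith
  · have hJ' : (2 : ℝ) ^ J < i := not_le.mp hJ
    have := h2 hJ'
    have hs : Real.sqrt (2 ^ J / i) ≤ 1 := by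
      rw [Real.sqrt_le_one]
      rw [div_le_one hi0]; exact hJ'.le
    linarith

theorem beta_pos (l : ℕ) : 0 < beta l := by unfold beta; positivity

theorem thr_zero_le (J l i : ℕ) : thr J 0 l i ≤ 2 * beta l * i := by
  unfold thr
  rcases Nat.eq_zero_or_pos i with h | h
  · subst h; simp
  · have h1 := eps_sum_le_one i h J
    have hb := beta_pos l
    rw [← Finset.range_eq_Ico]
    have hi0 : (0 : ℝ) ≤ i := Nat.cast_nonneg _
    have h2 : 0 ≤ beta l * i := mul_nonneg hb.le hi0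
    nlinarith

theorem min_mul_le {x : ℝ} (hx : 0 ≤ x) {r : ℝ} (hr : 1 ≤ r) : min 1 (r * x) ≤ r * min 1 x := by
  rcases le_total 1 x with h | h
  · rw [min_eq_left h]
    calc min 1 (r * x) ≤ 1 := min_le_left _ _
      _ ≤ r * 1 := by linarith
  · rw [min_eq_right h]
    exact min_le_right _ _

theorem sum_terms_leR (J R : ℕ) :
    ∑ j ∈ range J, ∑ r ∈ Icc 1 R, ((1 / 64 : ℝ) ^ r * min (1 : ℝ) (48 * (r : ℝ) / 2 ^ j)) ≤ 1 / 2 := by
  have h1 : ∀ j ∈ range J, ∑ r ∈ Icc 1 R, ((1 / 64 : ℝ) ^ r * min (1 : ℝ) (48 * (r : ℝ) / 2 ^ j)) ≤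
      min (1 : ℝ) (48 / 2 ^ j) * (1 / 32) := by
    intro j _
    have hx : (0 : ℝ) ≤ 48 / 2 ^ j := by positivity
    have hm : (0 : ℝ) ≤ min 1 (48 / 2 ^ j) := le_min zero_le_one hx
    calc ∑ r ∈ Icc 1 R, ((1 / 64 : ℝ) ^ r * min (1 : ℝ) (48 * (r : ℝ) / 2 ^ j))
        ≤ ∑ r ∈ Icc 1 R, (min 1 (48 / 2 ^ j) * ((1 / 64) * (1 / 2) ^ (r - 1))) := by
          apply sum_le_sum
          intro r hr
          have hr1 : 1 ≤ r := (mem_Icc.mp hr).1
          have hr1' : (1 : ℝ) ≤ r := by exact_mod_cast hr1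
          have e1 : (48 * (r : ℝ) / 2 ^ j) = r * (48 / 2 ^ j) := by ring
          rw [e1]
          have h2 := min_mul_le hx hr1'
          have h3 : (r : ℝ) ≤ 2 ^ (r - 1) := by
            have : r ≤ 2 ^ (r - 1) := by
              have := Nat.lt_two_pow_self (n := r - 1)
              omega
            exact_mod_cast this
          have h4 : (1 / 64 : ℝ) ^ r = (1 / 64) * (1 / 64) ^ (r - 1) := by
            conv_lhs => rw [show r = (r - 1) + 1 by omega]
            rw [pow_succ]; ring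
          have h5 : (1 / 64 : ℝ) ^ (r - 1) * 2 ^ (r - 1) ≤ (1 / 2) ^ (r - 1) := by
            rw [← mul_pow]
            apply pow_le_pow_left₀ (by norm_num)
            norm_num
          calc (1 / 64 : ℝ) ^ r * min (1 : ℝ) ((r : ℝ) * (48 / 2 ^ j))
              ≤ (1 / 64 : ℝ) ^ r * ((r : ℝ) * min (1 : ℝ) (48 / 2 ^ j)) :=
                mul_le_mul_of_nonneg_left h2 (by positivity)
            _ = min (1 : ℝ) (48 / 2 ^ j) * ((1 / 64) * ((1 / 64) ^ (r - 1) * (r : ℝ))) := by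
                rw [h4]; ring
            _ ≤ min (1 : ℝ) (48 / 2 ^ j) * ((1 / 64) * (1 / 2) ^ (r - 1)) := by
                apply mul_le_mul_of_nonneg_left _ hm
                apply mul_le_mul_of_nonneg_left _ (by norm_num)
                calc (1 / 64 : ℝ) ^ (r - 1) * (r : ℝ) ≤ (1 / 64 : ℝ) ^ (r - 1) * 2 ^ (r - 1) :=
                      mul_le_mul_of_nonneg_left h3 (by positivity)
                  _ ≤ _ := h5
      _ = min 1 (48 / 2 ^ j) * ((1 / 64) * ∑ r ∈ Icc 1 R, (1 / 2 : ℝ) ^ (r - 1)) := by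
          rw [mul_sum, mul_sum]
      _ ≤ min 1 (48 / 2 ^ j) * (1 / 32) := by
          apply mul_le_mul_of_nonneg_left _ hm
          have h6 : ∑ r ∈ Icc 1 R, (1 / 2 : ℝ) ^ (r - 1) = ∑ r ∈ range R, (1 / 2 : ℝ) ^ r := by
            rw [Finset.range_eq_Ico]
            have : Icc 1 R = Ico (0 + 1) (R + 1) := by
              ext x; simp only [mem_Icc, mem_Ico]; omega
            rw [this, ← Finset.sum_Ico_add' (fun r => (1 / 2 : ℝ) ^ (r - 1)) 0 R 1]
            simp
          rw [h6]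
          have := sum_geometric_two_le R
          linarith
  refine (sum_le_sum h1).trans ?_
  rw [← sum_mul]
  have h7 : ∑ j ∈ range J, min 1 ((48 : ℝ) / 2 ^ j) ≤ 10 := by
    have hnn : ∀ j : ℕ, (0 : ℝ) ≤ min 1 (48 / 2 ^ j) := fun j => le_min zero_le_one (by positivity)
    calc ∑ j ∈ range J, min 1 ((48 : ℝ) / 2 ^ j) ≤ ∑ j ∈ range (4 + J), min 1 ((48 : ℝ) / 2 ^ j) := by
          apply sum_le_sum_of_subset_of_nonneg
          · intro x hx; rw [mem_range] at *; omega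
          · intro j _ _; exact hnn j
      _ = ∑ j ∈ range 4, min 1 ((48 : ℝ) / 2 ^ j) + ∑ j ∈ range J, min 1 ((48 : ℝ) / 2 ^ (4 + j)) :=
          sum_range_add _ _ _
      _ ≤ ∑ j ∈ range 4, (1 : ℝ) + ∑ j ∈ range J, (3 * (1 / 2) ^ j) := by
          apply add_le_add
          · exact sum_le_sum fun j _ => min_le_left _ _
          · apply sum_le_sum
            intro j _
            refine (min_le_right _ _).trans (le_of_eq ?_)
            rw [pow_add, div_pow, one_pow]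
            field_simp
            norm_num
      _ ≤ 10 := by
          rw [← mul_sum]
          have := sum_geometric_two_le J
          simp only [sum_const, card_range, nsmul_eq_mul]
          push_cast
          linarith
  linarith

theorem sum_terms_le (J R : ℕ) :
    ∑ j ∈ range J, ∑ r ∈ Icc 1 R, ((1 / 64 : ℝ) ^ r * min 1 (48 * r / 2 ^ j)) ≤ 1 / 2 := by
  refine le_trans ?_ (sum_terms_leR J R)
  refine sum_le_sum fun j _ => sum_le_sum fun r _ => ?_
  apply mul_le_mul_of_nonneg_left _ (by positivity)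
  rw [Nat.cast_min]
  apply min_le_min
  · simp
  · refine Nat.cast_div_le.trans ?_
    push_cast
    exact le_refl _

theorem sum_filter_le (n : ℕ) (P : ℕ → Prop) (g : ℕ → ℝ) (R G : ℝ) (hR : 0 ≤ R) (hG : 0 ≤ G)
    (hP : ∀ a, P a → (a : ℝ) ≤ R) (hg : ∀ a, P a → g a ≤ G) :
    ∑ a ∈ (Icc 1 n).filter P, g a ≤ R * G := by
  have h1 : ∑ a ∈ (Icc 1 n).filter P, g a ≤ ∑ _a ∈ (Icc 1 n).filter P, G :=
    sum_le_sum fun a ha => hg a (mem_filter.mp ha).2
  refine h1.trans ?_
  rw [sum_const, nsmul_eq_mul]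
  apply mul_le_mul_of_nonneg_right _ hG
  have h2 : (Icc 1 n).filter P ⊆ Icc 1 ⌊R⌋₊ := by
    intro a ha
    rw [mem_filter, mem_Icc] at ha
    rw [mem_Icc]
    exact ⟨ha.1.1, Nat.le_floor (hP a ha.2)⟩
  have h3 := card_le_card h2
  rw [Nat.card_Icc] at h3
  have h4 : (((Icc 1 n).filter P).card : ℝ) ≤ (⌊R⌋₊ : ℝ) := by
    exact_mod_cast (by omega : ((Icc 1 n).filter P).card ≤ ⌊R⌋₊)
  exact h4.trans (Nat.floor_le hR)

theorem om_nonneg {s : ℝ} (hs : 1 ≤ s) (a : ℕ) : 0 ≤ om s a := by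
  unfold om; split_ifs <;> positivity

theorem om_le_one {s : ℝ} (hs : 1 ≤ s) (a : ℕ) : om s a ≤ 1 := by
  unfold om; split_ifs with h
  · have h0 : (0 : ℝ) ≤ a / s := by positivity
    have h1 : (a : ℝ) / s ≤ 1 := by rw [div_le_one (by linarith)]; exact h.le
    exact pow_le_one₀ h0 h1
  · exact le_refl _

/-- reachability at increment `i`: squared form -/
theorem reach_i {b s : ℝ} {r i : ℕ} {c : ℕ} (hb : b = beta c / 6) (hs : 1 ≤ s) (hi : 1 ≤ i)
    (h : beta c * i * eps s i ≤ r) :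
    ((i : ℝ) ≤ s ∧ b * (i : ℝ) ^ 2 ≤ r * s) ∨ (s < i ∧ b ^ 2 * (s * i) ≤ (r : ℝ) ^ 2) := by
  have hi0 : (0 : ℝ) < i := by exact_mod_cast hi
  have hs0 : 0 < s := by linarith
  have hbp : 0 < b := by rw [hb]; have := beta_pos c; positivity
  have hbeta : beta c = 6 * b := by rw [hb]; ring
  unfold eps at h
  split_ifs at h with h1
  · left
    refine ⟨h1, ?_⟩
    have e : beta c * i * ((1 / 6) * (i / s)) = b * (i : ℝ) ^ 2 / s := by
      rw [hbeta]; field_simp
    rw [e, div_le_iff₀ hs0] at h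
    exact h
  · right
    have h1' : s < i := not_le.mp h1
    refine ⟨h1', ?_⟩
    have e : beta c * i * ((1 / 6) * Real.sqrt (s / i)) = b * (i * Real.sqrt (s / i)) := by
      rw [hbeta]; ring
    rw [e] at h
    have h2 : 0 ≤ b * (i * Real.sqrt (s / i)) := by positivity
    have h3 := mul_self_le_mul_self h2 h
    have e2 : b * (i * Real.sqrt (s / i)) * (b * (i * Real.sqrt (s / i))) = b ^ 2 * (s * i) := by
      have : Real.sqrt (s / i) * Real.sqrt (s / i) = s / i := Real.mul_self_sqrt (by positivity)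
      calc b * (i * Real.sqrt (s / i)) * (b * (i * Real.sqrt (s / i)))
          = b ^ 2 * (i ^ 2 * (Real.sqrt (s / i) * Real.sqrt (s / i))) := by ring
        _ = b ^ 2 * (i ^ 2 * (s / i)) := by rw [this]
        _ = b ^ 2 * (s * i) := by field_simp
    rw [e2] at h3
    nlinarith [h3]

theorem Om_le (n r c : ℕ) (s b : ℝ) (hs : 1 ≤ s) (hr : 1 ≤ r) (hb : b = beta c / 6) :
    (s / (r : ℝ) ^ 2) * ∑ a ∈ (Icc 1 n).filter
        (fun a => Reach n (fun c i => beta c * i * eps s i) r c a), om s a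
      ≤ (b ^ 2)⁻¹ * min 1 ((r / (b * s)) ^ 2) := by
  have hs0 : 0 < s := by linarith
  have hbp : 0 < b := by rw [hb]; have := beta_pos c; positivity
  have hr0 : (0 : ℝ) < r := by exact_mod_cast hr
  rcases le_or_gt (r : ℝ) (b * s) with hcase | hcase
  · -- r ≤ b s
    have hy : (r : ℝ) / (b * s) ≤ 1 := by rw [div_le_one (by positivity)]; exact hcase
    have hy0 : 0 ≤ (r : ℝ) / (b * s) := by positivity
    rw [min_eq_right (pow_le_one₀ hy0 hy)]
    set R1 := Real.sqrt (r * s / b) with hR1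
    have hR1sq : R1 ^ 2 = r * s / b := Real.sq_sqrt (by positivity)
    have hR10 : 0 ≤ R1 := Real.sqrt_nonneg _
    have hreach : ∀ a : ℕ, Reach n (fun c i => beta c * i * eps s i) r c a → (a : ℝ) ≤ R1 := by
      rintro a ⟨i, hai, hi1, _, hD⟩
      have hai' : (a : ℝ) ≤ i := by exact_mod_cast hai
      have hi0 : (0 : ℝ) < i := by exact_mod_cast hi1
      rcases reach_i hb hs hi1 hD with ⟨_, h2⟩ | ⟨h1, h2⟩
      · refine hai'.trans ?_
        apply Real.le_sqrt_of_sq_le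
        rw [le_div_iff₀ hbp]
        linarith
      · exfalso
        have h3 : (r : ℝ) ^ 2 ≤ (b * s) ^ 2 := by
          apply pow_le_pow_left₀ hr0.le hcase
        have h4 : b ^ 2 * (s * s) < b ^ 2 * (s * i) := by
          apply mul_lt_mul_of_pos_left _ (by positivity)
          exact mul_lt_mul_of_pos_left h1 hs0
        have h5 : (b * s) ^ 2 = b ^ 2 * (s * s) := by ring
        linarith
    have hg : ∀ a : ℕ, Reach n (fun c i => beta c * i * eps s i) r c a → om s a ≤ (R1 / s) ^ 7 := by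
      intro a ha
      have h1 := hreach a ha
      unfold om
      split_ifs with h2
      · apply pow_le_pow_left₀ (by positivity)
        exact div_le_div_of_nonneg_right h1 hs0.le
      · have h3 : s ≤ R1 := (not_lt.mp h2).trans h1
        have h4 : 1 ≤ R1 / s := by rw [le_div_iff₀ hs0]; linarith
        exact one_le_pow₀ h4
    have h5 := sum_filter_le n _ (om s) R1 ((R1 / s) ^ 7) hR10 (by positivity) hreach hg
    have h6 : R1 * (R1 / s) ^ 7 = (R1 ^ 2) ^ 4 / s ^ 7 := by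
      rw [div_pow]; ring
    rw [h6, hR1sq] at h5
    calc _ ≤ (s / (r : ℝ) ^ 2) * ((r * s / b) ^ 4 / s ^ 7) :=
          mul_le_mul_of_nonneg_left h5 (by positivity)
      _ = (b ^ 2)⁻¹ * (r / (b * s)) ^ 2 := by field_simp
  · -- b s < r
    have hy : 1 ≤ (r : ℝ) / (b * s) := by rw [le_div_iff₀ (by positivity)]; linarith
    rw [min_eq_left (one_le_pow₀ hy)]
    have hreach : ∀ a : ℕ, Reach n (fun c i => beta c * i * eps s i) r c a →
        (a : ℝ) ≤ (r : ℝ) ^ 2 / (b ^ 2 * s) := by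
      rintro a ⟨i, hai, hi1, _, hD⟩
      have hai' : (a : ℝ) ≤ i := by exact_mod_cast hai
      have hi0 : (0 : ℝ) < i := by exact_mod_cast hi1
      refine hai'.trans ?_
      rw [le_div_iff₀ (by positivity)]
      rcases reach_i hb hs hi1 hD with ⟨h1, _⟩ | ⟨_, h2⟩
      · have h3 : (b * s) ^ 2 ≤ (r : ℝ) ^ 2 := pow_le_pow_left₀ (by positivity) hcase.le 2
        have h4 : (i : ℝ) * (b ^ 2 * s) ≤ s * (b ^ 2 * s) :=
          mul_le_mul_of_nonneg_right h1 (by positivity)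
        nlinarith
      · nlinarith
    have h5 := sum_filter_le n _ (om s) ((r : ℝ) ^ 2 / (b ^ 2 * s)) 1 (by positivity) zero_le_one
      hreach (fun a _ => om_le_one hs a)
    calc _ ≤ (s / (r : ℝ) ^ 2) * ((r : ℝ) ^ 2 / (b ^ 2 * s) * 1) :=
          mul_le_mul_of_nonneg_left h5 (by positivity)
      _ = (b ^ 2)⁻¹ * 1 := by field_simp

theorem sqrt_step {A y : ℝ} (hA : 1 ≤ A) (hy : 0 < y) :
    Real.sqrt (1 + 3072 * A ^ 2 / y) * min 1 (y ^ 2) ≤ 56 * A * min 1 y := by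
  rcases le_or_gt 1 y with h | h
  · rw [min_eq_left (one_le_pow₀ h), min_eq_left h]
    rw [mul_one, mul_one]
    apply Real.sqrt_le_iff.mpr
    constructor
    · positivity
    · have h1 : 3072 * A ^ 2 / y ≤ 3072 * A ^ 2 := div_le_self (by positivity) h
      nlinarith
  · rw [min_eq_right h.le, min_eq_right (pow_le_one₀ hy.le h.le)]
    have h1 : Real.sqrt (1 + 3072 * A ^ 2 / y) * y ≤ 56 * A := by
      have h2 : Real.sqrt (1 + 3072 * A ^ 2 / y) * y = Real.sqrt ((1 + 3072 * A ^ 2 / y) * y ^ 2) := by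
        rw [Real.sqrt_mul (by positivity), Real.sqrt_sq hy.le]
      rw [h2]
      apply Real.sqrt_le_iff.mpr
      constructor
      · positivity
      · have h3 : (1 + 3072 * A ^ 2 / y) * y ^ 2 = y ^ 2 + 3072 * A ^ 2 * y := by
          field_simp
        rw [h3]
        nlinarith [mul_pos hy hy, sq_nonneg A]
    calc Real.sqrt (1 + 3072 * A ^ 2 / y) * y ^ 2 = (Real.sqrt (1 + 3072 * A ^ 2 / y) * y) * y := by ring
      _ ≤ 56 * A * y := mul_le_mul_of_nonneg_right h1 hy.le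

/-- per-level bound -/
theorem level_le (n r c : ℕ) (s : ℝ) (hs : 1 ≤ s) (hr : 1 ≤ r) :
    (s / (r : ℝ) ^ 2) * (∑ a ∈ (Icc 1 n).filter
        (fun a => Reach n (fun c i => beta c * i * eps s i) r c a), om s a) *
        Real.sqrt (1 + 64 * s / r)
      ≤ 129024 * 128 ^ c * min 1 (48 * r / s) := by
  have hs0 : 0 < s := by linarith
  have hr0 : (0 : ℝ) < r := by exact_mod_cast hr
  set b := beta c / 6 with hb
  have hbv : b = (1 / 48) * (1 / 4) ^ c := by rw [hb]; unfold beta; ring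
  have hbp : 0 < b := by rw [hbv]; positivity
  have h1 := Om_le n r c s b hs hr hb
  set y := (r : ℝ) / (b * s) with hy
  have hy0 : 0 < y := by positivity
  have hA : (1 : ℝ) ≤ 2 ^ c := one_le_pow₀ (by norm_num)
  have h2 := sqrt_step hA hy0
  have e48 : (4 : ℝ) ^ c = (2 ^ c) ^ 2 := by rw [← pow_mul, mul_comm, pow_mul]; norm_num
  have einv : (1 / 4 : ℝ) ^ c * 4 ^ c = 1 := by rw [← mul_pow]; norm_num
  have e1 : 64 * s / r = 3072 * (2 ^ c) ^ 2 / y := by
    rw [← e48, hy, hbv]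
    field_simp
    have : (1 / 4 : ℝ) ^ c * 4 ^ c = 1 := einv
    nlinarith [this]
  have hmin : min 1 y ≤ 4 ^ c * min 1 (48 * r / s) := by
    have e2 : y = 4 ^ c * (48 * r / s) := by
      rw [hy, hbv]
      field_simp
      nlinarith [einv]
    rw [e2]
    have h4c : (1 : ℝ) ≤ 4 ^ c := one_le_pow₀ (by norm_num)
    rcases le_total 1 (48 * (r : ℝ) / s) with h | h
    · rw [min_eq_left h]
      exact (min_le_left _ _).trans (by linarith)
    · rw [min_eq_right h]; exact min_le_right _ _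
  rw [e1]
  have hsq0 : 0 ≤ Real.sqrt (1 + 3072 * (2 ^ c) ^ 2 / y) := Real.sqrt_nonneg _
  have hb2 : (b ^ 2)⁻¹ = 2304 * 16 ^ c := by
    rw [hbv, mul_pow, mul_inv, ← pow_mul, mul_comm c 2, pow_mul, ← inv_pow ((1 / 4 : ℝ) ^ 2) c]
    norm_num
  calc _ ≤ ((b ^ 2)⁻¹ * min 1 (y ^ 2)) * Real.sqrt (1 + 3072 * (2 ^ c) ^ 2 / y) :=
        mul_le_mul_of_nonneg_right h1 hsq0
    _ = (b ^ 2)⁻¹ * (Real.sqrt (1 + 3072 * (2 ^ c) ^ 2 / y) * min 1 (y ^ 2)) := by ring
    _ ≤ (b ^ 2)⁻¹ * (56 * 2 ^ c * min 1 y) := mul_le_mul_of_nonneg_left h2 (by positivity)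
    _ ≤ (b ^ 2)⁻¹ * (56 * 2 ^ c * (4 ^ c * min 1 (48 * r / s))) := by
        apply mul_le_mul_of_nonneg_left _ (by positivity)
        apply mul_le_mul_of_nonneg_left hmin (by positivity)
    _ = 129024 * 128 ^ c * min 1 (48 * r / s) := by
        rw [hb2]
        have : (128 : ℝ) ^ c = 16 ^ c * 2 ^ c * 4 ^ c := by
          rw [← mul_pow, ← mul_pow]; norm_num
        rw [this]; ring

theorem exp_pen {s : ℝ} (hs : 1 ≤ s) {r : ℕ} (hr : 1 ≤ r) :
    Real.exp (Pen s r) = (Real.exp 1 * Real.sqrt (1 + 64 * s / r)) ^ r := by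
  have hr0 : (0 : ℝ) < r := by exact_mod_cast hr
  have hX : 0 < 1 + 64 * s / r := by positivity
  have h1 : Real.sqrt (1 + 64 * s / r) = Real.exp ((1 / 2) * Real.log (1 + 64 * s / r)) := by
    rw [Real.sqrt_eq_rpow, Real.rpow_def_of_pos hX, mul_comm]
  rw [h1, ← Real.exp_add, ← Real.exp_nat_mul]
  congr 1
  unfold Pen
  ring

theorem inv_fact_le {r : ℕ} (hr : 1 ≤ r) : (1 / (r.factorial : ℝ)) ≤ (Real.exp 1 / r) ^ r := by
  have hr0 : (0 : ℝ) < r := by exact_mod_cast hr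
  have h1 := Real.pow_div_factorial_le_exp (r : ℝ) hr0.le r
  have hf : (0 : ℝ) < r.factorial := by exact_mod_cast Nat.factorial_pos r
  rw [div_pow, ← Real.exp_nat_mul, mul_one, le_div_iff₀ (by positivity)]
  calc 1 / (r.factorial : ℝ) * (r : ℝ) ^ r = (r : ℝ) ^ r / r.factorial := by ring
    _ ≤ _ := h1

theorem exp_cube : Real.exp 1 ^ 3 ≤ 20.0856 := by
  have h := Real.exp_one_lt_d9
  have h0 := Real.exp_pos 1
  calc Real.exp 1 ^ 3 ≤ (2.7182818286 : ℝ) ^ 3 := pow_le_pow_left₀ h0.le h.le 3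
    _ ≤ 20.0856 := by norm_num

theorem term_le (p q : ℝ) (hp : 0 < p) (hq : q = 2 ^ 37 * p) {M : ℕ} (w : Fin (M + 1) → ℝ)
    (hw : ∀ c : Fin (M + 1), (c : ℕ) < M → w c = q * 256 ^ (c : ℕ)) (s : ℝ) (hs : 1 ≤ s)
    (n m r : ℕ) (hr : 1 ≤ r) (hm : (m : ℝ) ≤ 258 * s) :
    (m.choose r : ℝ) * (p ^ r * Real.exp (Pen s r)) * ((1 / (r.factorial : ℝ)) *
        (∑ c ∈ (univ : Finset (Fin (M + 1))).filter (fun c : Fin (M + 1) => (c : ℕ) < M),
          (w c)⁻¹ * ∑ a ∈ (Icc 1 n).filter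
            (fun a => Reach n (fun c i => beta c * i * eps s i) r (c : ℕ) a), om s a) ^ r)
    ≤ (1 / 64) ^ r * min 1 (48 * r / s) := by
  have hs0 : 0 < s := by linarith
  have hr0 : (0 : ℝ) < r := by exact_mod_cast hr
  have hf : (0 : ℝ) < r.factorial := by exact_mod_cast Nat.factorial_pos r
  set mu : ℝ := min 1 (48 * r / s) with hmu
  have hmu0 : 0 ≤ mu := le_min zero_le_one (by positivity)
  have hmu1 : mu ≤ 1 := min_le_left _ _
  set SS : ℝ := ∑ c ∈ (univ : Finset (Fin (M + 1))).filter (fun c : Fin (M + 1) => (c : ℕ) < M),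
          (w c)⁻¹ * ∑ a ∈ (Icc 1 n).filter
            (fun a => Reach n (fun c i => beta c * i * eps s i) r (c : ℕ) a), om s a with hSS
  have hqp : 0 < q := by rw [hq]; positivity
  have hSS0 : 0 ≤ SS := by
    rw [hSS]
    apply sum_nonneg
    intro c hc
    rw [hw c (mem_filter.mp hc).2]
    apply mul_nonneg (by positivity)
    exact sum_nonneg fun a _ => om_nonneg hs a
  have hsq0 : 0 ≤ Real.sqrt (1 + 64 * s / r) := Real.sqrt_nonneg _
  -- bracket bound
  have hbr : 258 * Real.exp 1 ^ 3 * p * ((s / (r : ℝ) ^ 2) * SS * Real.sqrt (1 + 64 * s / r)) ≤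
      (1 / 64) * mu := by
    have h1 : (s / (r : ℝ) ^ 2) * SS * Real.sqrt (1 + 64 * s / r) ≤
        ∑ c ∈ (univ : Finset (Fin (M + 1))).filter (fun c : Fin (M + 1) => (c : ℕ) < M),
          q⁻¹ * (129024 * mu) * (1 / 2) ^ (c : ℕ) := by
      rw [hSS, mul_sum, sum_mul]
      apply sum_le_sum
      intro c hc
      rw [hw c (mem_filter.mp hc).2]
      have h2 := level_le n r c s hs hr
      have h3 : (0 : ℝ) ≤ (q * 256 ^ (c : ℕ))⁻¹ := by positivity
      calc _ = (q * 256 ^ (c : ℕ))⁻¹ * ((s / (r : ℝ) ^ 2) * (∑ a ∈ (Icc 1 n).filter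
        (fun a => Reach n (fun c i => beta c * i * eps s i) r c a), om s a) *
        Real.sqrt (1 + 64 * s / r)) := by ring
        _ ≤ (q * 256 ^ (c : ℕ))⁻¹ * (129024 * 128 ^ (c : ℕ) * mu) :=
          mul_le_mul_of_nonneg_left h2 h3
        _ = q⁻¹ * (129024 * mu) * (1 / 2) ^ (c : ℕ) := by
          rw [mul_inv]
          have : (1 / 2 : ℝ) ^ (c : ℕ) = (256 ^ (c : ℕ))⁻¹ * 128 ^ (c : ℕ) := by
            rw [← inv_pow, ← mul_pow]; norm_num
          rw [this]; ring
    have h4 : ∑ c ∈ (univ : Finset (Fin (M + 1))).filter (fun c : Fin (M + 1) => (c : ℕ) < M),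
          (1 / 2 : ℝ) ^ (c : ℕ) ≤ 2 := by
      calc _ ≤ ∑ c : Fin (M + 1), (1 / 2 : ℝ) ^ (c : ℕ) :=
            sum_le_sum_of_subset_of_nonneg (filter_subset _ _) (fun _ _ _ => by positivity)
        _ = ∑ i ∈ range (M + 1), (1 / 2 : ℝ) ^ i := Fin.sum_univ_eq_sum_range _ _
        _ ≤ 2 := sum_geometric_two_le _
    rw [← mul_sum] at h1
    have h5 : q⁻¹ * (129024 * mu) * ∑ c ∈ (univ : Finset (Fin (M + 1))).filter
        (fun c : Fin (M + 1) => (c : ℕ) < M), (1 / 2 : ℝ) ^ (c : ℕ) ≤ q⁻¹ * (129024 * mu) * 2 :=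
      mul_le_mul_of_nonneg_left h4 (by positivity)
    have h6 := h1.trans h5
    have h7 : 0 ≤ 258 * Real.exp 1 ^ 3 * p := by positivity
    have h8 := mul_le_mul_of_nonneg_left h6 h7
    have h9 : p * q⁻¹ = 1 / 2 ^ 37 := by rw [hq]; field_simp
    refine h8.trans ?_
    have h10 : 258 * Real.exp 1 ^ 3 * p * (q⁻¹ * (129024 * mu) * 2) =
        (258 * 129024 * 2 / 2 ^ 37) * Real.exp 1 ^ 3 * mu := by
      calc _ = 258 * Real.exp 1 ^ 3 * (p * q⁻¹) * (129024 * mu) * 2 := by ring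
        _ = _ := by rw [h9]; ring
    rw [h10]
    apply mul_le_mul_of_nonneg_right _ hmu0
    have := exp_cube
    calc (258 * 129024 * 2 / 2 ^ 37 : ℝ) * Real.exp 1 ^ 3 ≤
        (258 * 129024 * 2 / 2 ^ 37 : ℝ) * 20.0856 := mul_le_mul_of_nonneg_left this (by norm_num)
      _ ≤ 1 / 64 := by norm_num
  have hbr0 : 0 ≤ 258 * Real.exp 1 ^ 3 * p * ((s / (r : ℝ) ^ 2) * SS *
      Real.sqrt (1 + 64 * s / r)) := by positivity
  have hch : (m.choose r : ℝ) ≤ (258 * s * (Real.exp 1 / r)) ^ r := by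
    have h1 : (m.choose r : ℝ) ≤ (m : ℝ) ^ r / r.factorial := Nat.choose_le_pow_div r m
    have h2 : (m : ℝ) ^ r ≤ (258 * s) ^ r := pow_le_pow_left₀ (Nat.cast_nonneg _) hm r
    calc (m.choose r : ℝ) ≤ (m : ℝ) ^ r / r.factorial := h1
      _ = (m : ℝ) ^ r * (1 / r.factorial) := by ring
      _ ≤ (258 * s) ^ r * (Real.exp 1 / r) ^ r :=
        mul_le_mul h2 (inv_fact_le hr) (by positivity) (by positivity)
      _ = _ := by rw [← mul_pow]
  rw [exp_pen hs hr]
  calc (m.choose r : ℝ) * (p ^ r * (Real.exp 1 * Real.sqrt (1 + 64 * s / r)) ^ r) *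
        ((1 / (r.factorial : ℝ)) * SS ^ r)
      ≤ (258 * s * (Real.exp 1 / r)) ^ r * (p ^ r * (Real.exp 1 * Real.sqrt (1 + 64 * s / r)) ^ r) *
        ((Real.exp 1 / r) ^ r * SS ^ r) := by
        apply mul_le_mul
        · exact mul_le_mul_of_nonneg_right hch (by positivity)
        · exact mul_le_mul_of_nonneg_right (inv_fact_le hr) (by positivity)
        · positivity
        · positivity
    _ = (258 * Real.exp 1 ^ 3 * p * ((s / (r : ℝ) ^ 2) * SS * Real.sqrt (1 + 64 * s / r))) ^ r := by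
        rw [← mul_pow, ← mul_pow, ← mul_pow, ← mul_pow]
        congr 1
        field_simp
    _ ≤ ((1 / 64) * mu) ^ r := pow_le_pow_left₀ hbr0 hbr r
    _ = (1 / 64) ^ r * mu ^ r := mul_pow _ _ _
    _ ≤ (1 / 64) ^ r * mu := by
        apply mul_le_mul_of_nonneg_left _ (by positivity)
        calc mu ^ r ≤ mu ^ 1 := pow_le_pow_of_le_one hmu0 hmu1 hr
          _ = mu := pow_one _

end Crest.Agent.KK
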