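import Crest.Agent.KK.Code
import Crest.Agent.KK.Key
set_option autoImplicit false
open Finset
open scoped Classical

namespace Crest.Agent.KK

variable {N : Type} [Fintype N] [DecidableEq N]

section sym
variable {Γ : Subgroup (Equiv.Perm N)} {H U : Finset N} {pos : N → ℕ} {n : ℕ}
  {B B' : ℕ → ℕ → ℝ} {M : ℕ}

theorem os_cnt (γ σ : Equiv.Perm N) (h : N → Fin (M + 1)) (l i : ℕ) :
    cnt H U pos (γ * σ) (fun e => h (γ⁻¹ e)) l i = cnt H U pos σ h l i := by
  unfold cnt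
  simp [Equiv.Perm.mul_apply]

theorem os_cov (γ σ : Equiv.Perm N) (h : N → Fin (M + 1)) (c a : ℕ) :
    Cov H U pos n B (γ * σ) (fun e => h (γ⁻¹ e)) c a ↔ Cov H U pos n B σ h c a := by
  unfold Cov
  simp only [os_cnt]

theorem os_good (γ σ : Equiv.Perm N) (h : N → Fin (M + 1)) :
    Good H U pos n B (γ * σ) (fun e => h (γ⁻¹ e)) ↔ Good H U pos n B σ h := by
  unfold Good
  simp only [os_cnt]

theorem os_wit (γ σ : Equiv.Perm N) {h Z : N → Fin (M + 1)} (hw : Wit H U pos n B B' σ h Z) :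
    Wit H U pos n B B' (γ * σ) (fun e => h (γ⁻¹ e)) (fun e => Z (γ⁻¹ e)) := by
  obtain ⟨h1, h2, h3⟩ := hw
  refine ⟨fun e => h1 _, ?_, ?_⟩
  · intro e he
    have h4 := h2 (γ⁻¹ e) he
    rw [mul_inv_rev, Equiv.Perm.mul_apply, os_cov]
    exact h4
  · intro l i hi hi' hc
    rw [os_cnt]
    rw [os_cov] at hc
    exact h3 l i hi hi' hc

theorem os_conf {γ : Equiv.Perm N} (hγ : γ ∈ Γ) {h Z : N → Fin (M + 1)}
    (hc : Conf Γ H U pos n B B' h Z) :
    Conf Γ H U pos n B B' (fun e => h (γ⁻¹ e)) (fun e => Z (γ⁻¹ e)) := by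
  obtain ⟨σ, hσ, hw⟩ := hc
  exact ⟨γ * σ, Γ.mul_mem hγ hσ, os_wit γ σ hw⟩

theorem os_bad {γ : Equiv.Perm N} (hγ : γ ∈ Γ) {h : N → Fin (M + 1)}
    (hb : Bad Γ H U pos n B h) : Bad Γ H U pos n B (fun e => h (γ⁻¹ e)) := by
  intro σ hσ hg
  apply hb (γ⁻¹ * σ) (Γ.mul_mem (Γ.inv_mem hγ) hσ)
  have h1 : σ = γ * (γ⁻¹ * σ) := by group
  rw [h1] at hg
  exact (os_good _ _ _).1 hg

theorem os_max {γ : Equiv.Perm N} (hγ : γ ∈ Γ) {h Z : N → Fin (M + 1)}
    (hm : MaxC Γ H U pos n B B' h Z) :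
    MaxC Γ H U pos n B B' (fun e => h (γ⁻¹ e)) (fun e => Z (γ⁻¹ e)) := by
  obtain ⟨hb, hc, hmx⟩ := hm
  refine ⟨os_bad hγ hb, os_conf hγ hc, ?_⟩
  intro Z' hZ' hle
  have h1 := os_conf (γ := γ⁻¹) (Γ.inv_mem hγ) hZ'
  have h2 : Conf Γ H U pos n B B' h (fun e => Z' (γ e)) := by
    simpa using h1
  have h3 : (fun e => Z' (γ e)) = Z := hmx _ h2 (fun e => by simpa using hle (γ e))
  funext e
  have := congrFun h3 (γ⁻¹ e)
  simpa using this

theorem os_low (γ : Equiv.Perm N) (h Z : N → Fin (M + 1)) :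
    low (fun e => h (γ⁻¹ e)) (fun e => Z (γ⁻¹ e)) = (low h Z).image γ := by
  ext e
  simp only [low, Finset.mem_filter, Finset.mem_univ, true_and, Finset.mem_image]
  constructor
  · intro he
    exact ⟨γ⁻¹ e, he, by simp⟩
  · rintro ⟨a, ha, rfl⟩
    simpa using ha

theorem os_Pr_le (w : Fin (M + 1) → ℝ) (hw0 : ∀ c, 0 ≤ w c) (γ : Equiv.Perm N)
    (A A' : (N → Fin (M + 1)) → Prop) (hA : ∀ h, A h → A' (fun e => h (γ⁻¹ e))) :
    Pr w A ≤ Pr w A' := by
  unfold Pr
  have h1 : ∑ h ∈ (univ : Finset (N → Fin (M + 1))).filter A, ∏ e, w (h e)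
      = ∑ h ∈ ((univ : Finset (N → Fin (M + 1))).filter A).image (fun h => fun e => h (γ⁻¹ e)),
          ∏ e, w (h e) := by
    rw [Finset.sum_image]
    · apply Finset.sum_congr rfl
      intro h _
      exact (Equiv.prod_comp γ⁻¹ (fun e => w (h e))).symm
    · intro h _ h' _ hh
      funext e
      have := congrFun hh (γ e)
      simpa using this
  rw [h1]
  apply Finset.sum_le_sum_of_subset_of_nonneg
  · intro h hh
    rw [Finset.mem_image] at hh
    obtain ⟨g, hg, rfl⟩ := hh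
    rw [Finset.mem_filter] at hg ⊢
    exact ⟨Finset.mem_univ _, hA g hg.2⟩
  · intro h _ _
    exact Finset.prod_nonneg (fun e _ => hw0 _)

theorem os_orb {σ : Equiv.Perm N} (hσ : σ ∈ Γ) (T : Finset N) :
    orb Γ (T.image σ) = orb Γ T := by
  ext X
  simp only [orb, Finset.mem_filter, Finset.mem_univ, true_and]
  constructor
  · rintro ⟨τ, hτ, rfl⟩
    refine ⟨τ * σ, Γ.mul_mem hτ hσ, ?_⟩
    rw [Finset.image_image]; rfl
  · rintro ⟨τ, hτ, rfl⟩
    refine ⟨τ * σ⁻¹, Γ.mul_mem hτ (Γ.inv_mem hσ), ?_⟩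
    rw [Finset.image_image]
    congr 1
    funext x
    simp

end sym

/-- bound for one lowered set -/
theorem os_one (Γ : Subgroup (Equiv.Perm N)) (H U : Finset N) (pos : N → ℕ)
    (n : ℕ) (hinj : Set.InjOn pos (H : Set N)) (hpos : ∀ e ∈ H, 1 ≤ pos e ∧ pos e ≤ n)
    (B B' D : ℕ → ℕ → ℝ) (hD : ∀ l i, D l i ≤ B l i - B' l i)
    (hDa : ∀ l c i, l ≤ c → D c i ≤ D l i) {M : ℕ} (w : Fin (M + 1) → ℝ) (hw0 : ∀ c, 0 ≤ w c)
    (hw1 : ∑ c, w c = 1) (hwp : ∀ c : Fin (M + 1), (c : ℕ) < M → 0 < w c)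
    (f : ℕ → ℝ) (hf : ∀ a, 0 ≤ f a) (V : ℕ → ℝ) (hV0 : ∀ r, 0 ≤ V r)
    (hV : ∀ T : Finset N, T ⊆ H \ U → T.Nonempty →
      1 ≤ ((orb Γ T).card : ℝ) * V T.card * ∏ e ∈ T, f (pos e))
    (T : Finset N) (hT : T ⊆ H \ U) (hTne : T.Nonempty) :
    Pr w (fun h : N → Fin (M + 1) => ∃ Z, MaxC Γ H U pos n B B' h Z ∧ low h Z = T)
    ≤ V T.card * ((1 / (T.card.factorial : ℝ)) *
        (∑ c ∈ (univ : Finset (Fin (M + 1))).filter (fun c : Fin (M + 1) => (c : ℕ) < M),
          (w c)⁻¹ * ∑ a ∈ (Icc 1 n).filter (fun a => Reach n D T.card (c : ℕ) a), f a) ^ T.card) := by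
  set r := T.card with hr
  have hr1 : 1 ≤ r := Finset.card_pos.2 hTne
  have hV1 := hV T hT hTne
  rw [← hr] at hV1
  have hTo : T ∈ orb Γ T := by
    simp only [orb, Finset.mem_filter, Finset.mem_univ, true_and]
    exact ⟨1, Γ.one_mem, by simp⟩
  have ho : (0 : ℝ) < ((orb Γ T).card : ℝ) := by
    exact_mod_cast Finset.card_pos.2 ⟨T, hTo⟩
  have hVr : 0 < V r := by
    rcases (hV0 r).lt_or_eq with h | h
    · exact h
    · rw [← h] at hV1; norm_num at hV1
  let F : Finset N → ℝ := fun T' => 1 / (((orb Γ T').card : ℝ) * V r)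
  have hF0 : ∀ T', 0 ≤ F T' := fun T' => by
    apply div_nonneg zero_le_one
    exact mul_nonneg (Nat.cast_nonneg _) (hV0 r)
  have hF : ∀ σ ∈ Γ, ∀ T' : Finset N, (∀ e ∈ T', σ⁻¹ e ∈ H \ U) → T'.card = r →
      F T' ≤ ∏ e ∈ T', f (pos (σ⁻¹ e)) := by
    intro σ hσ T' hT' hc
    have h1 : T'.image (σ⁻¹ : Equiv.Perm N) ⊆ H \ U := by
      intro x hx
      rw [Finset.mem_image] at hx
      obtain ⟨e, he, rfl⟩ := hx
      exact hT' e he
    have hne : T'.Nonempty := by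
      rw [← Finset.card_pos, hc]; exact hr1
    have h2 := hV _ h1 (hne.image _)
    rw [os_orb (Γ.inv_mem hσ), Finset.card_image_of_injective _ (σ⁻¹ : Equiv.Perm N).injective, hc,
      Finset.prod_image (fun x _ y _ hxy => (σ⁻¹ : Equiv.Perm N).injective hxy)] at h2
    have hpos' : 0 < ((orb Γ T').card : ℝ) * V r := by
      rcases (mul_nonneg (Nat.cast_nonneg (orb Γ T').card) (hV0 r) :
        (0:ℝ) ≤ ((orb Γ T').card : ℝ) * V r).lt_or_eq with h | h
      · exact h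
      · rw [← h] at h2; norm_num at h2
    show 1 / (((orb Γ T').card : ℝ) * V r) ≤ _
    rw [div_le_iff₀ hpos']
    linarith
  have hcode := code_bound Γ H U pos n hinj hpos B B' D hD hDa w hw0 hw1 hwp f hf r F hF0 hF
  -- symmetrisation
  have hsym : ∀ T' ∈ orb Γ T,
      Pr w (fun h : N → Fin (M + 1) => ∃ Z, MaxC Γ H U pos n B B' h Z ∧ low h Z = T)
      ≤ Pr w (fun h : N → Fin (M + 1) => ∃ Z, MaxC Γ H U pos n B B' h Z ∧ low h Z = T') := by
    intro T' hT'
    simp only [orb, Finset.mem_filter, Finset.mem_univ, true_and] at hT'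
    obtain ⟨γ, hγ, rfl⟩ := hT'
    apply os_Pr_le w hw0 γ
    rintro h ⟨Z, hZ, hl⟩
    exact ⟨fun e => Z (γ⁻¹ e), os_max hγ hZ, by rw [os_low, hl]⟩
  set PT := Pr w (fun h : N → Fin (M + 1) => ∃ Z, MaxC Γ H U pos n B B' h Z ∧ low h Z = T) with hPT
  have horb : ∀ T' ∈ orb Γ T, orb Γ T' = orb Γ T := by
    intro T' hT'
    simp only [orb, Finset.mem_filter, Finset.mem_univ, true_and] at hT'
    obtain ⟨γ, hγ, rfl⟩ := hT'
    exact os_orb hγ T
  have hcardT : ∀ T' ∈ orb Γ T, T'.card = r := by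
    intro T' hT'
    simp only [orb, Finset.mem_filter, Finset.mem_univ, true_and] at hT'
    obtain ⟨γ, hγ, rfl⟩ := hT'
    rw [Finset.card_image_of_injective _ γ.injective]
  have h1 : PT * (1 / V r) ≤ ∑ T' ∈ orb Γ T, F T' *
      Pr w (fun h : N → Fin (M + 1) => ∃ Z, MaxC Γ H U pos n B B' h Z ∧ low h Z = T') := by
    have h2 : ∑ T' ∈ orb Γ T, (1 / (((orb Γ T).card : ℝ) * V r)) * PT = PT * (1 / V r) := by
      rw [Finset.sum_const, nsmul_eq_mul]
      field_simp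
    rw [← h2]
    apply Finset.sum_le_sum
    intro T' hT'
    have h3 : F T' = 1 / (((orb Γ T).card : ℝ) * V r) := by
      show 1 / (((orb Γ T').card : ℝ) * V r) = _
      rw [horb T' hT']
    rw [h3]
    apply mul_le_mul_of_nonneg_left (hsym T' hT')
    rw [← h3]; exact hF0 T'
  have h2 : ∑ T' ∈ orb Γ T, F T' *
      Pr w (fun h : N → Fin (M + 1) => ∃ Z, MaxC Γ H U pos n B B' h Z ∧ low h Z = T')
      ≤ ∑ h : N → Fin (M + 1), ∑ Z ∈ (univ : Finset (N → Fin (M + 1))).filter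
        (fun Z => MaxC Γ H U pos n B B' h Z ∧ (low h Z).card = r),
      (∏ e, w (h e)) * F (low h Z) := by
    have h3 : ∑ T' ∈ orb Γ T, F T' *
        Pr w (fun h : N → Fin (M + 1) => ∃ Z, MaxC Γ H U pos n B B' h Z ∧ low h Z = T')
        = ∑ h : N → Fin (M + 1), ∑ T' ∈ (orb Γ T).filter
          (fun T' => ∃ Z, MaxC Γ H U pos n B B' h Z ∧ low h Z = T'),
            (∏ e, w (h e)) * F T' := by
      simp only [Pr, Finset.mul_sum, Finset.sum_filter]
      rw [Finset.sum_comm]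
      apply Finset.sum_congr rfl
      intro h _
      apply Finset.sum_congr rfl
      intro T' _
      split_ifs
      · ring
      · ring
    rw [h3]
    apply Finset.sum_le_sum
    intro h _
    have hP : 0 ≤ ∏ e, w (h e) := Finset.prod_nonneg (fun e _ => hw0 _)
    calc ∑ T' ∈ (orb Γ T).filter (fun T' => ∃ Z, MaxC Γ H U pos n B B' h Z ∧ low h Z = T'),
            (∏ e, w (h e)) * F T'
        ≤ ∑ T' ∈ ((univ : Finset (N → Fin (M + 1))).filter
          (fun Z => MaxC Γ H U pos n B B' h Z ∧ (low h Z).card = r)).image (fun Z => low h Z),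
            (∏ e, w (h e)) * F T' := by
          apply Finset.sum_le_sum_of_subset_of_nonneg
          · intro T' hT'
            rw [Finset.mem_filter] at hT'
            obtain ⟨hT'o, Z, hZ, rfl⟩ := hT'
            rw [Finset.mem_image]
            refine ⟨Z, ?_, rfl⟩
            rw [Finset.mem_filter]
            exact ⟨Finset.mem_univ _, hZ, hcardT _ hT'o⟩
          · intro T' _ _
            exact mul_nonneg hP (hF0 T')
      _ ≤ _ := by
          apply Finset.sum_image_le_of_nonneg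
          intro u _
          exact mul_nonneg hP (hF0 u)
  have h3 := h1.trans (h2.trans hcode)
  have h4 : PT = V r * (PT * (1 / V r)) := by field_simp
  rw [h4]
  exact mul_le_mul_of_nonneg_left h3 hVr.le

theorem oneStep (Γ : Subgroup (Equiv.Perm N)) (H U S : Finset N) (hS : S ⊆ H \ U) (pos : N → ℕ)
    (n : ℕ) (hinj : Set.InjOn pos (H : Set N)) (hpos : ∀ e ∈ H, 1 ≤ pos e ∧ pos e ≤ n)
    (B B' D : ℕ → ℕ → ℝ) (hB : ∀ l i, B' l i ≤ B l i) (hD : ∀ l i, D l i ≤ B l i - B' l i)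
    (hDa : ∀ l c i, l ≤ c → D c i ≤ D l i) {M : ℕ} (w : Fin (M + 1) → ℝ) (hw0 : ∀ c, 0 ≤ w c)
    (hw1 : ∑ c, w c = 1) (hwp : ∀ c : Fin (M + 1), (c : ℕ) < M → 0 < w c)
    (f : ℕ → ℝ) (hf : ∀ a, 0 ≤ f a) (V : ℕ → ℝ) (hV0 : ∀ r, 0 ≤ V r)
    (hV : ∀ T : Finset N, T ⊆ H \ U → T.Nonempty →
      1 ≤ ((orb Γ T).card : ℝ) * V T.card * ∏ e ∈ T, f (pos e)) :
    Pr w (fun h : N → Fin (M + 1) => Bad Γ H U pos n B h ∧ ¬ Bad (stab Γ S) H (U ∪ S) pos n B' h)
    ≤ ∑ r ∈ Icc 1 S.card, (S.card.choose r : ℝ) * V r * ((1 / (r.factorial : ℝ)) *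
        (∑ c ∈ (univ : Finset (Fin (M + 1))).filter (fun c : Fin (M + 1) => (c : ℕ) < M),
          (w c)⁻¹ * ∑ a ∈ (Icc 1 n).filter (fun a => Reach n D r (c : ℕ) a), f a) ^ r) := by
  let K : ℕ → ℝ := fun r => V r * ((1 / (r.factorial : ℝ)) *
        (∑ c ∈ (univ : Finset (Fin (M + 1))).filter (fun c : Fin (M + 1) => (c : ℕ) < M),
          (w c)⁻¹ * ∑ a ∈ (Icc 1 n).filter (fun a => Reach n D r (c : ℕ) a), f a) ^ r)
  have hP0 : ∀ h : N → Fin (M + 1), 0 ≤ ∏ e, w (h e) :=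
    fun h => Finset.prod_nonneg (fun e _ => hw0 _)
  -- union bound
  have h1 : Pr w (fun h : N → Fin (M + 1) =>
        Bad Γ H U pos n B h ∧ ¬ Bad (stab Γ S) H (U ∪ S) pos n B' h)
      ≤ ∑ T ∈ S.powerset.filter (fun T => T.Nonempty),
          Pr w (fun h : N → Fin (M + 1) => ∃ Z, MaxC Γ H U pos n B B' h Z ∧ low h Z = T) := by
    suffices hmain : (∑ h : N → Fin (M + 1),
        if (Bad Γ H U pos n B h ∧ ¬ Bad (stab Γ S) H (U ∪ S) pos n B' h)
          then ∏ e, w (h e) else 0)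
      ≤ ∑ h : N → Fin (M + 1), ∑ T ∈ S.powerset.filter (fun T => T.Nonempty),
          if (∃ Z, MaxC Γ H U pos n B B' h Z ∧ low h Z = T) then ∏ e, w (h e) else 0 by
      rw [Finset.sum_comm (t := S.powerset.filter (fun T => T.Nonempty))] at hmain
      simp only [Pr]
      rw [Finset.sum_filter]
      refine le_trans (le_of_eq ?_) (hmain.trans (le_of_eq ?_))
      · apply Finset.sum_congr rfl
        intro h _
        split_ifs <;> rfl
      · apply Finset.sum_congr rfl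
        intro T _
        rw [Finset.sum_filter]
        apply Finset.sum_congr rfl
        intro h _
        split_ifs <;> rfl
    apply Finset.sum_le_sum
    intro h _
    by_cases hh : Bad Γ H U pos n B h ∧ ¬ Bad (stab Γ S) H (U ∪ S) pos n B' h
    · rw [if_pos hh]
      obtain ⟨hb, hnb⟩ := hh
      unfold Bad at hnb
      push Not at hnb
      obtain ⟨σ, hσ, hg⟩ := hnb
      obtain ⟨Z, hZ, hZS, hZne⟩ := exLow Γ H U S hS pos n hpos B B' hB h hb σ hσ.1 hσ.2 hg
      have hmem : low h Z ∈ S.powerset.filter (fun T => T.Nonempty) := by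
        rw [Finset.mem_filter, Finset.mem_powerset]
        exact ⟨hZS, hZne⟩
      have h2 := Finset.single_le_sum (s := S.powerset.filter (fun T => T.Nonempty))
        (f := fun T => if (∃ Z, MaxC Γ H U pos n B B' h Z ∧ low h Z = T) then ∏ e, w (h e) else 0)
        (fun T _ => by
          beta_reduce
          split_ifs
          · exact hP0 h
          · exact le_refl _) hmem
      beta_reduce at h2
      rw [if_pos ⟨Z, hZ, rfl⟩] at h2
      exact h2
    · rw [if_neg hh]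
      apply Finset.sum_nonneg
      intro T _
      split_ifs
      · exact hP0 h
      · exact le_refl _
  have h2 : ∑ T ∈ S.powerset.filter (fun T => T.Nonempty),
          Pr w (fun h : N → Fin (M + 1) => ∃ Z, MaxC Γ H U pos n B B' h Z ∧ low h Z = T)
      ≤ ∑ T ∈ S.powerset.filter (fun T => T.Nonempty), K T.card := by
    apply Finset.sum_le_sum
    intro T hT
    rw [Finset.mem_filter, Finset.mem_powerset] at hT
    exact os_one Γ H U pos n hinj hpos B B' D hD hDa w hw0 hw1 hwp f hf V hV0 hV T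
      (hT.1.trans hS) hT.2
  have h3 : ∑ T ∈ S.powerset.filter (fun T => T.Nonempty), K T.card
      = ∑ T ∈ S.powerset, (fun r : ℕ => if r = 0 then (0 : ℝ) else K r) T.card := by
    rw [Finset.sum_filter]
    apply Finset.sum_congr rfl
    intro T _
    by_cases hT : T.Nonempty
    · have : T.card ≠ 0 := (Finset.card_pos.2 hT).ne'
      simp [hT, this]
    · rw [Finset.not_nonempty_iff_eq_empty] at hT
      simp [hT]
  have h4 : ∑ T ∈ S.powerset, (fun r : ℕ => if r = 0 then (0 : ℝ) else K r) T.card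
      = ∑ r ∈ Icc 1 S.card, (S.card.choose r : ℝ) * K r := by
    rw [Finset.sum_powerset_apply_card (fun r : ℕ => if r = 0 then (0 : ℝ) else K r)]
    have h5 : range (S.card + 1) = insert 0 (Icc 1 S.card) := by
      ext x
      simp only [Finset.mem_range, Finset.mem_insert, Finset.mem_Icc]
      omega
    rw [h5, Finset.sum_insert (by simp)]
    simp only [if_true, smul_zero, zero_add, nsmul_eq_mul]
    apply Finset.sum_congr rfl
    intro x hx
    rw [Finset.mem_Icc] at hx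
    rw [if_neg (by omega)]
  calc _ ≤ _ := h1
    _ ≤ _ := h2
    _ = _ := h3
    _ = _ := h4
    _ = _ := by
      apply Finset.sum_congr rfl
      intro r _
      show _ * (V r * _) = _
      ring

end Crest.Agent.KK
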