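import Crest.Agent.KK.Closure
import Crest.Agent.KK.OneStep
import Crest.Agent.KK.Num
set_option autoImplicit false
open Finset
open scoped Classical

namespace Crest.Agent.KK

variable {N : Type} [Fintype N] [DecidableEq N]

theorem pen_mono {s : ℝ} (hs : 0 ≤ s) {m k : ℕ} (h : m ≤ k) : Pen s m ≤ Pen s k := by
  rcases Nat.eq_zero_or_pos m with hm | hm
  · subst hm; rw [pen_zero]; exact pen_nonneg hs k
  have hm' : (0 : ℝ) < m := by exact_mod_cast hm
  have hmk : (m : ℝ) ≤ k := by exact_mod_cast h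
  have hk' : (0 : ℝ) < k := by linarith
  have hc : 0 ≤ 64 * s / (m : ℝ) := by positivity
  -- concavity of log
  have h1 := (strictConcaveOn_log_Ioi.concaveOn).2 (show (1 : ℝ) ∈ Set.Ioi (0 : ℝ) by simp)
    (show (1 + 64 * s / (m : ℝ)) ∈ Set.Ioi (0 : ℝ) by simp only [Set.mem_Ioi]; linarith)
    (show 0 ≤ 1 - (m : ℝ) / k by rw [sub_nonneg, div_le_one hk']; exact hmk)
    (show 0 ≤ (m : ℝ) / k by positivity) (by ring)
  simp only [smul_eq_mul, Real.log_one, mul_zero, zero_add] at h1
  have e1 : (1 - (m : ℝ) / k) * 1 + (m : ℝ) / k * (1 + 64 * s / m) = 1 + 64 * s / k := by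
    field_simp; ring
  rw [e1] at h1
  have h2 : (m : ℝ) * Real.log (1 + 64 * s / m) ≤ k * Real.log (1 + 64 * s / k) := by
    have h3 := mul_le_mul_of_nonneg_left h1 hk'.le
    have h4 : (k : ℝ) * ((m : ℝ) / k * Real.log (1 + 64 * s / m)) = m * Real.log (1 + 64 * s / m) := by
      field_simp
    linarith
  unfold Pen
  linarith

theorem mn_om_nonneg {s : ℝ} (hs : 0 ≤ s) (a : ℕ) : 0 ≤ om s a := by
  unfold om
  split_ifs
  · positivity
  · norm_num

theorem mn_eps_nonneg {s : ℝ} (hs : 0 ≤ s) (i : ℕ) : 0 ≤ eps s i := by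
  unfold eps
  split_ifs <;> positivity

theorem mn_beta_pos (l : ℕ) : 0 < beta l := by unfold beta; positivity

theorem mn_beta_anti {l c : ℕ} (h : l ≤ c) : beta c ≤ beta l := by
  unfold beta
  have : ((1 : ℝ) / 4) ^ c ≤ (1 / 4) ^ l := pow_le_pow_of_le_one (by norm_num) (by norm_num) h
  linarith

theorem thr_succ {J j : ℕ} (h : j < J) (l i : ℕ) :
    thr J j l i = thr J (j + 1) l i + beta l * i * eps (2 ^ j) i := by
  unfold thr
  rw [Finset.sum_eq_sum_Ico_succ_bot h]
  ring

theorem pr_mono {M : ℕ} {w : Fin (M + 1) → ℝ} (hw0 : ∀ c, 0 ≤ w c)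
    {A B : (N → Fin (M + 1)) → Prop} (h : ∀ x, A x → B x) : Pr w A ≤ Pr w B := by
  unfold Pr
  apply Finset.sum_le_sum_of_subset_of_nonneg
  · intro x hx
    rw [Finset.mem_filter] at hx ⊢
    exact ⟨hx.1, h x hx.2⟩
  · intro x _ _
    exact Finset.prod_nonneg fun e _ => hw0 _

theorem pr_le_add {M : ℕ} {w : Fin (M + 1) → ℝ} (hw0 : ∀ c, 0 ≤ w c)
    (A B : (N → Fin (M + 1)) → Prop) : Pr w A ≤ Pr w B + Pr w (fun h => A h ∧ ¬ B h) := by
  unfold Pr
  rw [Finset.sum_filter, Finset.sum_filter, Finset.sum_filter, ← Finset.sum_add_distrib]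
  apply Finset.sum_le_sum
  intro x _
  have h0 : 0 ≤ ∏ e, w (x e) := Finset.prod_nonneg fun e _ => hw0 _
  by_cases hA : A x <;> by_cases hB : B x <;> simp [hA, hB, h0]

theorem bad_le_half (Γ : Subgroup (Equiv.Perm N)) (H : Finset N) (pos : N → ℕ) (n : ℕ)
    (hinj : Set.InjOn pos (H : Set N)) (hpos : ∀ e ∈ H, 1 ≤ pos e ∧ pos e ≤ n)
    (p : ℝ) (hp : 0 < p) (hp1 : p ≤ 1)
    (hE : ∀ D ⊆ H, D.Nonempty → 1 / 2 ≤ ((orb Γ D).card : ℝ) * p ^ D.card)
    {M : ℕ} (w : Fin (M + 1) → ℝ) (hw0 : ∀ c, 0 ≤ w c) (hw1 : ∑ c, w c = 1)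
    (hw : ∀ c : Fin (M + 1), (c : ℕ) < M → w c = (2 ^ 37 * p) * 256 ^ (c : ℕ)) :
    Pr w (fun h : N → Fin (M + 1) => Bad Γ H ∅ pos n (fun l i => 2 * beta l * i) h) ≤ 1 / 2 := by
  obtain ⟨J, hJ⟩ := pow_unbounded_of_one_lt ((n : ℝ) * (Fintype.card N + 1))
    (show (1 : ℝ) < 2 by norm_num)
  have hwp : ∀ c : Fin (M + 1), (c : ℕ) < M → 0 < w c := by
    intro c hc
    rw [hw c hc]; positivity
  have main : ∀ k j : ℕ, j + k = J → ∀ (Γ' : Subgroup (Equiv.Perm N)) (U : Finset N),
      PropP Γ' H U pos p (2 ^ j) →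
      Pr w (fun h : N → Fin (M + 1) => Bad Γ' H U pos n (thr J j) h) ≤
        ∑ j' ∈ Finset.Ico j J, ∑ r ∈ Icc 1 H.card,
          ((1 / 64 : ℝ) ^ r * min (1 : ℝ) (48 * (r : ℝ) / 2 ^ j')) := by
    intro k
    induction k with
    | zero =>
      intro j hj Γ' U hP
      have hjJ : j = J := by omega
      subst hjJ
      rw [Finset.Ico_self, Finset.sum_empty]
      have hHU : H ⊆ U := propP_final Γ' H U pos n hpos p (2 ^ j) hp.le hp1 hJ hP
      unfold Pr
      rw [Finset.filter_false_of_mem, Finset.sum_empty]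
      intro h _ hbad
      apply hbad 1 Γ'.one_mem
      intro l i hi1 _
      have h0 : H \ U = ∅ := Finset.sdiff_eq_empty_iff_subset.mpr hHU
      have h1 : cnt H U pos (1 : Equiv.Perm N) h l i = 0 := by
        unfold cnt
        rw [h0, Finset.card_eq_zero]
        apply Finset.filter_empty
      rw [h1]
      have h2 : (0 : ℝ) < i := by exact_mod_cast hi1
      have h3 := mn_beta_pos l
      simp only [thr, Finset.Ico_self, Finset.sum_empty, add_zero, mul_one, Nat.cast_zero]
      positivity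
    | succ k ih =>
      intro j hj Γ' U hP
      have hjJ : j < J := by omega
      have hs1 : (1 : ℝ) ≤ 2 ^ j := one_le_pow₀ (by norm_num)
      have hs0 : (0 : ℝ) < 2 ^ j := by positivity
      obtain ⟨S, hSH, hScard, hP'⟩ := closure Γ' H U pos hinj (fun e he => (hpos e he).1) p (2 ^ j)
        hp hs1 hP
      have hpow : (2 : ℝ) * 2 ^ j = 2 ^ (j + 1) := by rw [pow_succ]; ring
      rw [hpow] at hP'
      have hIH := ih (j + 1) (by omega) (stab Γ' S) (U ∪ S) hP'
      have hV : ∀ T : Finset N, T ⊆ H \ U → T.Nonempty →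
          1 ≤ ((orb Γ' T).card : ℝ) * (fun r : ℕ => p ^ r * Real.exp (Pen (2 ^ j) r)) T.card *
            ∏ e ∈ T, om (2 ^ j) (pos e) := by
        intro T hT _
        have h1 := hP T hT
        have hposT : ∀ e ∈ T, 1 ≤ pos e := fun e he => (hpos e (Finset.sdiff_subset (hT he))).1
        have h2 : 0 < ∏ e ∈ T, om (2 ^ j) (pos e) :=
          Finset.prod_pos fun e he => cl_om_pos hs0 (hposT e he)
        have h3 : Pen (2 ^ j) (T.filter (fun e => (2 : ℝ) ^ j ≤ (pos e : ℝ))).card ≤
            Pen (2 ^ j) T.card := pen_mono hs0.le (Finset.card_le_card (Finset.filter_subset _ _))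
        unfold Wt at h1
        rw [Finset.prod_inv_distrib] at h1
        have h4 : (∏ e ∈ T, om (2 ^ j) (pos e))⁻¹ * Real.exp (-Pen (2 ^ j) T.card)
            ≤ ((orb Γ' T).card : ℝ) * p ^ T.card := by
          refine le_trans ?_ h1
          apply mul_le_mul_of_nonneg_left _ (inv_nonneg.mpr h2.le)
          exact Real.exp_le_exp.mpr (by linarith)
        have h5 := mul_le_mul_of_nonneg_right h4
          (show 0 ≤ Real.exp (Pen (2 ^ j) T.card) * ∏ e ∈ T, om (2 ^ j) (pos e) by positivity)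
        have h6 : (∏ e ∈ T, om (2 ^ j) (pos e))⁻¹ * Real.exp (-Pen (2 ^ j) T.card) *
            (Real.exp (Pen (2 ^ j) T.card) * ∏ e ∈ T, om (2 ^ j) (pos e)) = 1 := by
          rw [Real.exp_neg]
          have h7 := (Real.exp_pos (Pen (2 ^ j) T.card)).ne'
          field_simp
        rw [h6] at h5
        calc (1 : ℝ) ≤ _ := h5
          _ = _ := by ring
      have hone := oneStep Γ' H U S hSH pos n hinj hpos (thr J j) (thr J (j + 1))
        (fun c i => beta c * i * eps (2 ^ j) i)
        (by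
          intro l i
          rw [thr_succ hjJ l i]
          have h1 := mn_beta_pos l
          have h2 := mn_eps_nonneg hs0.le i
          have : 0 ≤ beta l * i * eps (2 ^ j) i := by positivity
          linarith)
        (by
          intro l i
          rw [thr_succ hjJ l i]
          simp)
        (by
          intro l c i hlc
          have h1 := mn_beta_anti hlc
          have h2 := mn_eps_nonneg hs0.le i
          have h3 : (0 : ℝ) ≤ i := by positivity
          exact mul_le_mul_of_nonneg_right (mul_le_mul_of_nonneg_right h1 h3) h2)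
        w hw0 hw1 hwp (om (2 ^ j)) (mn_om_nonneg hs0.le)
        (fun r => p ^ r * Real.exp (Pen (2 ^ j) r)) (fun r => by positivity) hV
      have hterm : Pr w (fun h : N → Fin (M + 1) => Bad Γ' H U pos n (thr J j) h ∧
          ¬ Bad (stab Γ' S) H (U ∪ S) pos n (thr J (j + 1)) h) ≤
          ∑ r ∈ Icc 1 H.card, ((1 / 64 : ℝ) ^ r * min (1 : ℝ) (48 * (r : ℝ) / 2 ^ j)) := by
        refine hone.trans ?_
        have hSc : S.card ≤ H.card := Finset.card_le_card (hSH.trans Finset.sdiff_subset)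
        calc _ ≤ ∑ r ∈ Icc 1 S.card, ((1 / 64 : ℝ) ^ r * min (1 : ℝ) (48 * (r : ℝ) / 2 ^ j)) := by
              apply Finset.sum_le_sum
              intro r hr
              exact term_le p (2 ^ 37 * p) hp rfl w hw (2 ^ j) hs1 n S.card r
                (Finset.mem_Icc.mp hr).1 hScard
          _ ≤ _ := by
              apply Finset.sum_le_sum_of_subset_of_nonneg
              · intro r hr
                rw [Finset.mem_Icc] at hr ⊢
                omega
              · intro r _ _
                have : (0 : ℝ) ≤ min (1 : ℝ) (48 * (r : ℝ) / 2 ^ j) := by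
                  apply le_min <;> positivity
                positivity
      rw [Finset.sum_eq_sum_Ico_succ_bot hjJ]
      have hadd := pr_le_add hw0 (fun h : N → Fin (M + 1) => Bad Γ' H U pos n (thr J j) h)
        (fun h : N → Fin (M + 1) => Bad (stab Γ' S) H (U ∪ S) pos n (thr J (j + 1)) h)
      linarith
  have h0 : PropP Γ H ∅ pos p (2 ^ 0) := by
    have := propP_zero Γ H pos (fun e he => (hpos e he).1) p hp.le hE
    simpa using this
  have h1 := main J 0 (by omega) Γ ∅ h0
  have h2 := sum_terms_leR J H.card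
  have h3 : Pr w (fun h : N → Fin (M + 1) => Bad Γ H ∅ pos n (fun l i => 2 * beta l * i) h) ≤
      Pr w (fun h : N → Fin (M + 1) => Bad Γ H ∅ pos n (thr J 0) h) := by
    apply pr_mono hw0
    intro h hb σ hσ hg
    apply hb σ hσ
    intro l i hi1 hin
    exact lt_of_lt_of_le (hg l i hi1 hin) (thr_zero_le J l i)
  rw [← Finset.range_eq_Ico] at h1
  linarith

end Crest.Agent.KK
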