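import Crest.Agent.KK.SpreadCore2
import Crest.Agent.KK.Main
set_option autoImplicit false
open Finset
open scoped Classical

namespace Crest.Agent.KK

variable {N : Type} [Fintype N] [DecidableEq N]

theorem spread (Γ : Subgroup (Equiv.Perm N)) (H : Finset N) (p : ℝ) (hp : 0 ≤ p)
    (hE : ∀ D ⊆ H, D.Nonempty → 1 / 2 ≤ ((orb Γ D).card : ℝ) * p ^ D.card)
    (T : Finset N) (hT : T ⊆ H) :
    (((orb Γ T).filter (fun T' => T' ⊆ H)).card : ℝ)
      ≤ (2 ^ 50 * p) ^ T.card * ((orb Γ T).card : ℝ) := by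
  have hle : (((orb Γ T).filter (fun T' => T' ⊆ H)).card : ℝ) ≤ ((orb Γ T).card : ℝ) := by
    exact_mod_cast card_le_card (filter_subset _ _)
  rcases T.eq_empty_or_nonempty with hT0 | hT0
  · have : T.card = 0 := by rw [hT0]; rfl
    rw [this, pow_zero, one_mul]; exact hle
  by_cases hbig : 1 ≤ 2 ^ 50 * p
  · refine hle.trans ?_
    have h1 : (1 : ℝ) ≤ (2 ^ 50 * p) ^ T.card := one_le_pow₀ hbig
    have h2 : (0 : ℝ) ≤ ((orb Γ T).card : ℝ) := by positivity
    nlinarith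
  push Not at hbig
  have hcp : 0 < T.card := card_pos.mpr hT0
  rcases hp.eq_or_lt with h0 | hp0
  · exfalso
    have := hE T hT hT0
    rw [← h0, zero_pow hcp.ne', mul_zero] at this
    norm_num at this
  have hp1 : p ≤ 1 := by nlinarith
  have hq1 : (2 : ℝ) ^ 37 * p ≤ 1 := by nlinarith
  have hmain := spread_core Γ H T hT0 (2 ^ 37 * p) (by positivity) hq1 (by
    intro pos hinj hpos M w hw0 hw1 hw
    exact bad_le_half Γ H pos H.card hinj hpos p hp0 hp1 hE w hw0 hw1 hw)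
  refine hmain.trans ?_
  have h3 : 4 * ((2048 * (2 ^ 37 * p)) ^ T.card) ≤ (2 ^ 50 * p) ^ T.card := by
    have h4 : (2 ^ 50 * p : ℝ) = 4 * (2048 * (2 ^ 37 * p)) := by ring
    rw [h4, mul_pow (4 : ℝ)]
    apply mul_le_mul_of_nonneg_right _ (by positivity)
    calc (4 : ℝ) = 4 ^ 1 := by norm_num
      _ ≤ 4 ^ T.card := pow_le_pow_right₀ (by norm_num) hcp
  have h5 : (0 : ℝ) ≤ ((orb Γ T).card : ℝ) := by positivity
  calc _ = (4 * ((2048 * (2 ^ 37 * p)) ^ T.card)) * ((orb Γ T).card : ℝ) := by ring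
    _ ≤ _ := mul_le_mul_of_nonneg_right h3 h5

end Crest.Agent.KK
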