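import Crest.Agent.KK.Defs
set_option autoImplicit false
open Finset
open scoped Classical

namespace Crest.Agent.KK

variable {N : Type} [Fintype N] [DecidableEq N]

/-- ordering by decreasing weight -/
theorem exists_pos (H : Finset N) (lam : N → ℕ) : ∃ pos : N → ℕ,
    Set.InjOn pos (H : Set N) ∧ (∀ e ∈ H, 1 ≤ pos e ∧ pos e ≤ H.card) ∧
    ∀ t : ℕ, ∀ e ∈ H, t ≤ lam e → pos e ≤ (H.filter (fun e' => t ≤ lam e')).card := by
  let idx : N ≃ Fin (Fintype.card N) := Fintype.equivFin N
  let C : ℕ := ∑ e, lam e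
  have hC : ∀ e, lam e ≤ C := fun e => single_le_sum (f := lam) (fun _ _ => Nat.zero_le _) (mem_univ e)
  let K : ℕ := Fintype.card N
  let key : N → ℕ := fun e => (C - lam e) * K + (idx e : ℕ)
  have hkey1 : ∀ e e', key e ≤ key e' → lam e' ≤ lam e := by
    intro e e' hle
    by_contra hlt
    push Not at hlt
    have h1 : C - lam e' + 1 ≤ C - lam e := by have := hC e'; omega
    have h2 : (idx e' : ℕ) < K := (idx e').2
    have h3 : (C - lam e' + 1) * K ≤ (C - lam e) * K := Nat.mul_le_mul_right _ h1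
    simp only [key] at hle
    nlinarith
  have hkinj : Function.Injective key := by
    intro e e' heq
    have h1 : lam e = lam e' := le_antisymm (hkey1 e' e heq.symm.le) (hkey1 e e' heq.le)
    simp only [key] at heq
    rw [h1] at heq
    have : (idx e : ℕ) = (idx e' : ℕ) := by omega
    exact idx.injective (Fin.ext this)
  refine ⟨fun e => (H.filter (fun e' => key e' ≤ key e)).card, ?_, ?_, ?_⟩
  · intro e he e' he' heq
    by_contra hne
    have hk : key e ≠ key e' := fun h => hne (hkinj h)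
    simp only at heq
    rcases lt_or_gt_of_ne hk with hlt | hlt
    · have : (H.filter (fun x => key x ≤ key e)) ⊂ (H.filter (fun x => key x ≤ key e')) := by
        rw [ssubset_iff_of_subset]
        · refine ⟨e', ?_, ?_⟩
          · simp [mem_coe.mp he']
          · simp only [mem_filter, not_and, not_le]; intro _; exact hlt
        · intro x hx
          simp only [mem_filter] at hx ⊢
          exact ⟨hx.1, hx.2.trans hlt.le⟩
      exact absurd heq (card_lt_card this).ne
    · have : (H.filter (fun x => key x ≤ key e')) ⊂ (H.filter (fun x => key x ≤ key e)) := by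
        rw [ssubset_iff_of_subset]
        · refine ⟨e, ?_, ?_⟩
          · simp [mem_coe.mp he]
          · simp only [mem_filter, not_and, not_le]; intro _; exact hlt
        · intro x hx
          simp only [mem_filter] at hx ⊢
          exact ⟨hx.1, hx.2.trans hlt.le⟩
      exact absurd heq (card_lt_card this).ne'
  · intro e he
    refine ⟨?_, card_le_card (filter_subset _ _)⟩
    apply card_pos.mpr
    exact ⟨e, by simp [he]⟩
  · intro t e he hte
    apply card_le_card
    intro x hx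
    simp only [mem_filter] at hx ⊢
    exact ⟨hx.1, hte.trans (hkey1 x e hx.2)⟩

theorem layer (s : Finset N) (lam : N → ℕ) (C : ℕ) (hC : ∀ e ∈ s, lam e ≤ C) :
    ∑ e ∈ s, lam e = ∑ t ∈ Icc 1 C, (s.filter (fun e => t ≤ lam e)).card := by
  simp_rw [card_filter]
  rw [sum_comm]
  apply sum_congr rfl
  intro e he
  rw [← card_filter]
  have : (Icc 1 C).filter (fun t => t ≤ lam e) = Icc 1 (lam e) := by
    ext t
    simp only [mem_filter, mem_Icc]
    have := hC e he
    omega
  rw [this, Nat.card_Icc]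
  omega

/-- Abel summation for good copies -/
theorem good_abel (H : Finset N) (lam : N → ℕ) (pos : N → ℕ)
    (hlam : ∀ t : ℕ, ∀ e ∈ H, t ≤ lam e → pos e ≤ (H.filter (fun e' => t ≤ lam e')).card)
    {M : ℕ} (σ : Equiv.Perm N) (h : N → Fin (M + 1))
    (hg : Good H ∅ pos H.card (fun l i => 2 * beta l * i) σ h) (l : ℕ) :
    ((∑ e ∈ H.filter (fun e => l < (h (σ e) : ℕ)), lam e : ℕ) : ℝ)
      ≤ 2 * beta l * ((∑ e ∈ H, lam e : ℕ) : ℝ) := by
  obtain ⟨C, hC⟩ : ∃ C, ∀ e ∈ H, lam e ≤ C := ⟨∑ e ∈ H, lam e, fun e he =>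
    single_le_sum (f := lam) (fun _ _ => Nat.zero_le _) he⟩
  have hb : 0 ≤ beta l := by unfold beta; positivity
  rw [layer (H.filter (fun e => l < (h (σ e) : ℕ))) lam C (fun e he => hC e (mem_filter.mp he).1),
    layer H lam C hC]
  push_cast
  rw [mul_sum]
  apply sum_le_sum
  intro t _
  set i := (H.filter (fun e => t ≤ lam e)).card with hi
  have hsub : ((H.filter (fun e => l < (h (σ e) : ℕ))).filter (fun e => t ≤ lam e)).card
      ≤ cnt H ∅ pos σ h l i := by
    unfold cnt
    apply card_le_card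
    intro e he
    simp only [mem_filter, sdiff_empty] at he ⊢
    exact ⟨he.1.1, hlam t e he.1.1 he.2, he.1.2⟩
  have hle : (((H.filter (fun e => l < (h (σ e) : ℕ))).filter (fun e => t ≤ lam e)).card : ℝ)
      ≤ (cnt H ∅ pos σ h l i : ℝ) := by exact_mod_cast hsub
  rcases Nat.eq_zero_or_pos i with h0 | h1
  · have : (H.filter (fun e => l < (h (σ e) : ℕ))).filter (fun e => t ≤ lam e) = ∅ := by
      rw [← card_eq_zero]
      have : ((H.filter (fun e => l < (h (σ e) : ℕ))).filter (fun e => t ≤ lam e)).card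
          ≤ (H.filter (fun e => t ≤ lam e)).card := by
        apply card_le_card
        intro e he
        simp only [mem_filter] at he ⊢
        exact ⟨he.1.1, he.2⟩
      omega
    rw [this]; simp; positivity
  · have hin : i ≤ H.card := card_le_card (filter_subset _ _)
    exact hle.trans (hg l i h1 hin).le

theorem sum_beta (M : ℕ) : ∑ l ∈ range M, 2 * beta l ≤ 1 / 3 := by
  unfold beta
  have : ∑ l ∈ range M, 2 * ((1 / 8 : ℝ) * (1 / 4) ^ l) = (1 / 4) * ∑ l ∈ range M, (1 / 4 : ℝ) ^ l := by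
    rw [mul_sum]; apply sum_congr rfl; intro l _; ring
  rw [this, geom_sum_eq (by norm_num)]
  have h0 : (0 : ℝ) ≤ (1 / 4) ^ M := by positivity
  have h2 : ((1 / 4 : ℝ) ^ M - 1) / (1 / 4 - 1) = (1 - (1 / 4) ^ M) * (4 / 3) := by
    rw [div_eq_iff (by norm_num)]; ring
  rw [h2]
  linarith

/-- counting light members of the orbit -/
theorem good_count (Γ : Subgroup (Equiv.Perm N)) (H T : Finset N) (hT : T.Nonempty) (lam : N → ℕ)
    (hlamdef : ∀ e, lam e = (((orb Γ T).filter (fun T' => T' ⊆ H)).filter (fun T' => e ∈ T')).card)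
    (pos : N → ℕ)
    (hlam : ∀ t : ℕ, ∀ e ∈ H, t ≤ lam e → pos e ≤ (H.filter (fun e' => t ≤ lam e')).card)
    {M : ℕ} (σ : Equiv.Perm N) (hσ : σ ∈ Γ) (h : N → Fin (M + 1))
    (hg : Good H ∅ pos H.card (fun l i => 2 * beta l * i) σ h) :
    (1 / 2 : ℝ) * (((orb Γ T).filter (fun T' => T' ⊆ H)).card : ℝ) ≤
      (((orb Γ T).filter (fun T' => ∑ e ∈ T', (h e : ℕ) ≤ T.card)).card : ℝ) := by
  set 𝒯 := (orb Γ T).filter (fun T' => T' ⊆ H) with h𝒯
  have hcardT : ∀ T' ∈ orb Γ T, T'.card = T.card := by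
    intro T' hT'
    simp only [orb, mem_filter, mem_univ, true_and] at hT'
    obtain ⟨τ, _, rfl⟩ := hT'
    exact card_image_of_injective _ τ.injective
  -- double count
  have hdc : ∀ g : N → ℕ, ∑ T' ∈ 𝒯, ∑ e ∈ T', g e = ∑ e ∈ H, lam e * g e := by
    intro g
    have h1 : ∀ T' ∈ 𝒯, ∑ e ∈ T', g e = ∑ e ∈ H, if e ∈ T' then g e else 0 := by
      intro T' hT'
      have hsub := (mem_filter.mp hT').2
      rw [← sum_filter]
      congr 1
      ext e
      simp only [mem_filter]
      exact ⟨fun he => ⟨hsub he, he⟩, fun he => he.2⟩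
    rw [sum_congr rfl h1, sum_comm]
    apply sum_congr rfl
    intro e _
    rw [hlamdef e, ← sum_filter, sum_const, smul_eq_mul]
  have htot : ∑ e ∈ H, lam e = 𝒯.card * T.card := by
    have h1 := hdc (fun _ => 1)
    simp only [mul_one, sum_const, smul_eq_mul] at h1
    rw [← h1]
    rw [sum_congr rfl (fun T' hT' => hcardT T' (mem_filter.mp hT').1)]
    rw [sum_const, smul_eq_mul]
  -- sum of levels
  have hlev : ∑ T' ∈ 𝒯, ∑ e ∈ T', (h (σ e) : ℕ)
      = ∑ l ∈ range M, ∑ e ∈ H.filter (fun e => l < (h (σ e) : ℕ)), lam e := by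
    rw [hdc (fun e => (h (σ e) : ℕ))]
    simp_rw [sum_filter]
    rw [sum_comm]
    apply sum_congr rfl
    intro e _
    rw [← sum_filter, sum_const, smul_eq_mul, mul_comm]
    congr 1
    have : (range M).filter (fun l => l < (h (σ e) : ℕ)) = range (h (σ e) : ℕ) := by
      ext l
      simp only [mem_filter, mem_range]
      have := (h (σ e)).2
      omega
    rw [this, card_range]
  have hlev2 : ((∑ T' ∈ 𝒯, ∑ e ∈ T', (h (σ e) : ℕ) : ℕ) : ℝ) ≤ (1 / 3) * (𝒯.card * T.card) := by
    rw [hlev]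
    push_cast
    have h1 : ∀ l ∈ range M, (∑ e ∈ H.filter (fun e => l < (h (σ e) : ℕ)), (lam e : ℝ))
        ≤ 2 * beta l * (𝒯.card * T.card) := by
      intro l _
      have := good_abel H lam pos hlam σ h hg l
      rw [htot] at this
      push_cast at this
      exact this
    refine (sum_le_sum h1).trans ?_
    rw [← sum_mul]
    exact mul_le_mul_of_nonneg_right (sum_beta M) (by positivity)
  -- Markov
  set bad := 𝒯.filter (fun T' => T.card < ∑ e ∈ T', (h (σ e) : ℕ)) with hbad
  have hTc : (0 : ℝ) < T.card := by exact_mod_cast card_pos.mpr hT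
  have hmk : (bad.card : ℝ) * T.card ≤ ((∑ T' ∈ 𝒯, ∑ e ∈ T', (h (σ e) : ℕ) : ℕ) : ℝ) := by
    have : bad.card * T.card ≤ ∑ T' ∈ 𝒯, ∑ e ∈ T', (h (σ e) : ℕ) := by
      calc bad.card * T.card = ∑ T' ∈ bad, T.card := by simp
        _ ≤ ∑ T' ∈ bad, ∑ e ∈ T', (h (σ e) : ℕ) := by
            apply sum_le_sum
            intro T' hT'
            exact (mem_filter.mp hT').2.le
        _ ≤ _ := by
            apply sum_le_sum_of_subset
            exact filter_subset _ _
    exact_mod_cast this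
  have hbadle : (bad.card : ℝ) ≤ (1 / 3) * 𝒯.card := by
    have h1 : (bad.card : ℝ) * T.card ≤ ((1 / 3) * 𝒯.card) * T.card := by
      calc _ ≤ _ := hmk
        _ ≤ (1 / 3) * (𝒯.card * T.card) := hlev2
        _ = _ := by ring
    exact le_of_mul_le_mul_right h1 hTc
  set gd := 𝒯.filter (fun T' => ¬ T.card < ∑ e ∈ T', (h (σ e) : ℕ)) with hgd
  have hsplit : bad.card + gd.card = 𝒯.card := card_filter_add_card_filter_not _
  have hgdle : gd.card ≤ ((orb Γ T).filter (fun T' => ∑ e ∈ T', (h e : ℕ) ≤ T.card)).card := by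
    apply card_le_card_of_injOn (fun T' => T'.image σ)
    · intro T' hT'
      have hT1 := mem_filter.mp (mem_coe.mp hT')
      have hT2 := mem_filter.mp hT1.1
      apply mem_coe.mpr
      simp only [mem_filter]
      refine ⟨?_, ?_⟩
      · simp only [orb, mem_filter, mem_univ, true_and] at hT2 ⊢
        obtain ⟨⟨τ, hτ, hτ'⟩, _⟩ := hT2
        refine ⟨σ * τ, Γ.mul_mem hσ hτ, ?_⟩
        rw [← hτ', image_image]; rfl
      · rw [sum_image (fun x _ y _ hxy => σ.injective hxy)]
        exact not_lt.mp hT1.2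
    · intro A _ A' _ heq
      exact image_injective σ.injective heq
  have h1 : (bad.card : ℝ) + gd.card = 𝒯.card := by exact_mod_cast hsplit
  have h2 : (gd.card : ℝ) ≤ (((orb Γ T).filter (fun T' => ∑ e ∈ T', (h e : ℕ) ≤ T.card)).card : ℝ) := by
    exact_mod_cast hgdle
  have h3 : (0 : ℝ) ≤ 𝒯.card := by positivity
  linarith

/-- expectation of a product over a subset -/
theorem expect_prod {M : ℕ} (w : Fin (M + 1) → ℝ) (hw1 : ∑ c, w c = 1) (g : Fin (M + 1) → ℝ)
    (T : Finset N) :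
    ∑ h : N → Fin (M + 1), (∏ e, w (h e)) * ∏ e ∈ T, g (h e) = (∑ c, w c * g c) ^ T.card := by
  have h1 : ∀ h : N → Fin (M + 1), (∏ e, w (h e)) * ∏ e ∈ T, g (h e)
      = ∏ e, (w (h e) * if e ∈ T then g (h e) else 1) := by
    intro h
    rw [prod_mul_distrib]
    congr 1
    rw [prod_ite_mem]
    simp
  simp_rw [h1]
  have h2 := Finset.prod_univ_sum (fun _ : N => (univ : Finset (Fin (M + 1))))
    (fun e c => w c * if e ∈ T then g c else 1)
  rw [Fintype.piFinset_univ] at h2
  rw [← h2]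
  have h3 : ∀ e : N, ∑ c, (w c * if e ∈ T then g c else 1) = if e ∈ T then ∑ c, w c * g c else 1 := by
    intro e
    by_cases he : e ∈ T
    · simp [he]
    · simp [he, hw1]
  simp_rw [h3]
  rw [prod_ite_mem]
  simp

theorem orbit_expect (Γ : Subgroup (Equiv.Perm N)) (T : Finset N) {M : ℕ} (w : Fin (M + 1) → ℝ)
    (hw0 : ∀ c, 0 ≤ w c) (hw1 : ∑ c, w c = 1) (E : ℝ)
    (hE : ∑ c, w c * (512 * (1 / 512) ^ (c : ℕ)) ≤ E) :
    ∑ h : N → Fin (M + 1), (∏ e, w (h e)) *
      (((orb Γ T).filter (fun T' => ∑ e ∈ T', (h e : ℕ) ≤ T.card)).card : ℝ)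
    ≤ ((orb Γ T).card : ℝ) * E ^ T.card := by
  have hcardT : ∀ T' ∈ orb Γ T, T'.card = T.card := by
    intro T' hT'
    simp only [orb, mem_filter, mem_univ, true_and] at hT'
    obtain ⟨τ, _, rfl⟩ := hT'
    exact card_image_of_injective _ τ.injective
  have hpt : ∀ h : N → Fin (M + 1), (∏ e, w (h e)) *
      (((orb Γ T).filter (fun T' => ∑ e ∈ T', (h e : ℕ) ≤ T.card)).card : ℝ)
      ≤ ∑ T' ∈ orb Γ T, (∏ e, w (h e)) * ∏ e ∈ T', (512 * (1 / 512 : ℝ) ^ (h e : ℕ)) := by
    intro h
    rw [← mul_sum]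
    apply mul_le_mul_of_nonneg_left _ (prod_nonneg (fun e _ => hw0 _))
    rw [card_filter]
    push_cast
    apply sum_le_sum
    intro T' hT'
    rw [prod_mul_distrib, prod_const, hcardT T' hT', prod_pow_eq_pow_sum]
    split_ifs with hc
    · have h1 : (512 : ℝ) ^ T.card * (1 / 512) ^ (∑ e ∈ T', (h e : ℕ))
          = 512 ^ (T.card - ∑ e ∈ T', (h e : ℕ)) := by
        rw [one_div, inv_pow]
        rw [pow_sub₀ _ (by norm_num) hc]
      rw [h1]
      exact one_le_pow₀ (by norm_num)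
    · positivity
  refine (sum_le_sum (fun h _ => hpt h)).trans ?_
  rw [sum_comm]
  have h2 : ∀ T' ∈ orb Γ T, ∑ h : N → Fin (M + 1),
      (∏ e, w (h e)) * ∏ e ∈ T', (512 * (1 / 512 : ℝ) ^ (h e : ℕ)) ≤ E ^ T.card := by
    intro T' hT'
    rw [expect_prod w hw1 (fun c => 512 * (1 / 512 : ℝ) ^ (c : ℕ)) T', hcardT T' hT']
    apply pow_le_pow_left₀ _ hE
    exact sum_nonneg (fun c _ => mul_nonneg (hw0 c) (by positivity))
  refine (sum_le_sum h2).trans ?_
  rw [sum_const, nsmul_eq_mul]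

end Crest.Agent.KK
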