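import Crest.Agent.KK.SpreadCore
set_option autoImplicit false
open Finset
open scoped Classical

namespace Crest.Agent.KK

variable {N : Type} [Fintype N] [DecidableEq N]

theorem exists_levels (q : ℝ) (hq : 0 < q) (hq1 : q ≤ 1) : ∃ (M : ℕ) (w : Fin (M + 1) → ℝ),
    (∀ c, 0 ≤ w c) ∧ ∑ c, w c = 1 ∧ (∀ c : Fin (M + 1), (c : ℕ) < M → w c = q * 256 ^ (c : ℕ)) ∧
    ∑ c, w c * (512 * (1 / 512 : ℝ) ^ (c : ℕ)) ≤ 2048 * q := by
  have hex : ∃ m : ℕ, 1 < q * (256 ^ (m + 1) - 1) / 255 := by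
    obtain ⟨m, hm⟩ := pow_unbounded_of_one_lt (255 / q + 1) (by norm_num : (1 : ℝ) < 256)
    refine ⟨m, ?_⟩
    have h1 : (256 : ℝ) ^ m ≤ 256 ^ (m + 1) := pow_le_pow_right₀ (by norm_num) (by omega)
    have h2 : 255 / q < 256 ^ (m + 1) - 1 := by linarith
    rw [div_lt_iff₀ hq] at h2
    rw [lt_div_iff₀ (by norm_num)]
    linarith
  classical
  set M := Nat.find hex with hM
  have hMspec : 1 < q * (256 ^ (M + 1) - 1) / 255 := Nat.find_spec hex
  have hMle : q * (256 ^ M - 1) / 255 ≤ 1 := by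
    rcases Nat.eq_zero_or_pos M with h0 | h1
    · rw [h0]; norm_num
    · have h2 : ¬ (1 < q * (256 ^ ((M - 1) + 1) - 1) / 255) := Nat.find_min hex (by omega)
      rw [Nat.sub_add_cancel h1] at h2
      exact not_lt.mp h2
  refine ⟨M, fun c => if (c : ℕ) < M then q * 256 ^ (c : ℕ) else 1 - q * (256 ^ M - 1) / 255,
    ?_, ?_, ?_, ?_⟩
  · intro c
    dsimp only
    split_ifs
    · positivity
    · linarith
  · rw [Fin.sum_univ_castSucc]
    simp only [Fin.val_castSucc, Fin.val_last, lt_irrefl, if_false, Fin.is_lt, if_true]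
    rw [Fin.sum_univ_eq_sum_range (fun c => q * (256 : ℝ) ^ c) M, ← mul_sum,
      geom_sum_eq (by norm_num)]
    ring
  · intro c hc
    simp [hc]
  · rw [Fin.sum_univ_castSucc]
    simp only [Fin.val_castSucc, Fin.val_last, lt_irrefl, if_false, Fin.is_lt, if_true]
    rw [Fin.sum_univ_eq_sum_range (fun c => q * (256 : ℝ) ^ c * (512 * (1 / 512 : ℝ) ^ c)) M]
    have h1 : ∀ c ∈ range M, q * (256 : ℝ) ^ c * (512 * (1 / 512 : ℝ) ^ c)
        = 512 * q * (1 / 2) ^ c := by
      intro c _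
      have : (256 : ℝ) ^ c * (1 / 512) ^ c = (1 / 2) ^ c := by
        rw [← mul_pow]; norm_num
      calc _ = 512 * q * ((256 : ℝ) ^ c * (1 / 512) ^ c) := by ring
        _ = _ := by rw [this]
    rw [sum_congr rfl h1, ← mul_sum, geom_sum_eq (by norm_num)]
    have h2 : (0 : ℝ) ≤ (1 / 2) ^ M := by positivity
    have h3 : (1 - q * (256 ^ M - 1) / 255) ≤ 1 := by
      have : (1 : ℝ) ≤ 256 ^ M := one_le_pow₀ (by norm_num)
      have : 0 ≤ q * (256 ^ M - 1) / 255 := by
        apply div_nonneg _ (by norm_num)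
        exact mul_nonneg hq.le (by linarith)
      linarith
    have h4 : (1 / 512 : ℝ) ^ M ≤ 2 * q := by
      have h5 : (1 / 512 : ℝ) ^ M ≤ (1 / 256) ^ M := by
        apply pow_le_pow_left₀ (by norm_num) (by norm_num)
      have h6 : (1 / 256 : ℝ) ^ M ≤ 2 * q := by
        rw [one_div, inv_pow, inv_le_iff_one_le_mul₀ (by positivity)]
        rw [lt_div_iff₀ (by norm_num), pow_succ] at hMspec
        have : (0 : ℝ) < 256 ^ M := by positivity
        nlinarith
      exact h5.trans h6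
    have h5 : (1 - q * (256 ^ M - 1) / 255) * (512 * (1 / 512 : ℝ) ^ M) ≤ 1 * (512 * (2 * q)) := by
      apply mul_le_mul h3 _ (by positivity) (by norm_num)
      exact mul_le_mul_of_nonneg_left h4 (by norm_num)
    have h6 : ((1 / 2 : ℝ) ^ M - 1) / (1 / 2 - 1) = 2 * (1 - (1 / 2) ^ M) := by
      rw [div_eq_iff (by norm_num)]; ring
    rw [h6]
    nlinarith

/-- the probabilistic deduction -/
theorem spread_core (Γ : Subgroup (Equiv.Perm N)) (H T : Finset N) (hT : T.Nonempty) (q : ℝ)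
    (hq : 0 < q) (hq1 : q ≤ 1)
    (hbad : ∀ (pos : N → ℕ), Set.InjOn pos (H : Set N) → (∀ e ∈ H, 1 ≤ pos e ∧ pos e ≤ H.card) →
      ∀ (M : ℕ) (w : Fin (M + 1) → ℝ), (∀ c, 0 ≤ w c) → ∑ c, w c = 1 →
      (∀ c : Fin (M + 1), (c : ℕ) < M → w c = q * 256 ^ (c : ℕ)) →
      Pr w (fun h : N → Fin (M + 1) => Bad Γ H ∅ pos H.card (fun l i => 2 * beta l * i) h) ≤ 1 / 2) :
    (((orb Γ T).filter (fun T' => T' ⊆ H)).card : ℝ)
      ≤ 4 * ((2048 * q) ^ T.card * ((orb Γ T).card : ℝ)) := by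
  obtain ⟨M, w, hw0, hw1, hw, hE⟩ := exists_levels q hq hq1
  let lam : N → ℕ := fun e =>
    (((orb Γ T).filter (fun T' => T' ⊆ H)).filter (fun T' => e ∈ T')).card
  obtain ⟨pos, hinj, hpos, hlam⟩ := exists_pos H lam
  have hb := hbad pos hinj hpos M w hw0 hw1 hw
  have htot : ∑ h : N → Fin (M + 1), ∏ e, w (h e) = 1 := by
    have := expect_prod (N := N) w hw1 (fun _ => 1) ∅
    simpa using this
  set BadE := fun h : N → Fin (M + 1) => Bad Γ H ∅ pos H.card (fun l i => 2 * beta l * i) h with hBadE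
  have hsplit : Pr w BadE + ∑ h ∈ (univ : Finset (N → Fin (M + 1))).filter (fun h => ¬ BadE h),
      ∏ e, w (h e) = 1 := by
    unfold Pr
    rw [sum_filter_add_sum_filter_not, htot]
  set X := (((orb Γ T).filter (fun T' => T' ⊆ H)).card : ℝ) with hX
  have hX0 : 0 ≤ X := by positivity
  have hlow : (1 / 2) * (1 / 2 * X) ≤ ∑ h : N → Fin (M + 1), (∏ e, w (h e)) *
      (((orb Γ T).filter (fun T' => ∑ e ∈ T', (h e : ℕ) ≤ T.card)).card : ℝ) := by
    have h1 : ∑ h ∈ (univ : Finset (N → Fin (M + 1))).filter (fun h => ¬ BadE h),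
        (∏ e, w (h e)) * (1 / 2 * X) ≤ ∑ h : N → Fin (M + 1), (∏ e, w (h e)) *
      (((orb Γ T).filter (fun T' => ∑ e ∈ T', (h e : ℕ) ≤ T.card)).card : ℝ) := by
      have h2 : ∑ h ∈ (univ : Finset (N → Fin (M + 1))).filter (fun h => ¬ BadE h),
        (∏ e, w (h e)) * (1 / 2 * X) ≤
        ∑ h ∈ (univ : Finset (N → Fin (M + 1))).filter (fun h => ¬ BadE h), (∏ e, w (h e)) *
      (((orb Γ T).filter (fun T' => ∑ e ∈ T', (h e : ℕ) ≤ T.card)).card : ℝ) := by
        apply sum_le_sum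
        intro h hh
        have hnb := (mem_filter.mp hh).2
        apply mul_le_mul_of_nonneg_left _ (prod_nonneg (fun e _ => hw0 _))
        simp only [hBadE, Bad, not_forall, not_not] at hnb
        obtain ⟨σ, hσ, hg⟩ := hnb
        exact good_count Γ H T hT lam (fun e => rfl) pos hlam σ hσ h hg
      refine h2.trans ?_
      apply sum_le_sum_of_subset_of_nonneg (filter_subset _ _)
      intro h _ _
      exact mul_nonneg (prod_nonneg (fun e _ => hw0 _)) (by positivity)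
    refine le_trans ?_ h1
    rw [← sum_mul]
    apply mul_le_mul_of_nonneg_right _ (by positivity)
    linarith
  have hup := orbit_expect Γ T w hw0 hw1 (2048 * q) hE
  have := hlow.trans hup
  linarith

end Crest.Agent.KK
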